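import Vale.Agent.P126.Mods

namespace Vale.Agent.P126.AB

open Finset

/-- The bin of a value v in [-4, 4]. -/
noncomputable def bin (l : ℕ) (v : ℝ) : Fin (512 * l + 1) :=
  ⟨min ⌊(v + 4) * (64 * l)⌋₊ (512 * l), by omega⟩

lemma bin_eq {l : ℕ} (hl : 1 ≤ l) {v w : ℝ} (hv : |v| ≤ 4) (hw : |w| ≤ 4)
    (h : bin l v = bin l w) : |v - w| ≤ 1 / (64 * (l : ℝ)) := by
  have hl' : (1 : ℝ) ≤ l := by exact_mod_cast hl
  have hv' := abs_le.mp hv
  have hw' := abs_le.mp hw
  have h1 : ∀ u : ℝ, -4 ≤ u → u ≤ 4 →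
      min ⌊(u + 4) * (64 * (l : ℝ))⌋₊ (512 * l) = ⌊(u + 4) * (64 * (l : ℝ))⌋₊ := by
    intro u h1 h2
    apply min_eq_left
    apply Nat.floor_le_of_le
    push_cast
    nlinarith
  have h2 := congrArg Fin.val h
  simp only [bin] at h2
  rw [h1 v hv'.1 hv'.2, h1 w hw'.1 hw'.2] at h2
  have a1 := Nat.floor_le (a := (v + 4) * (64 * (l : ℝ))) (by nlinarith)
  have a2 := Nat.lt_floor_add_one ((v + 4) * (64 * (l : ℝ)))
  have b1 := Nat.floor_le (a := (w + 4) * (64 * (l : ℝ))) (by nlinarith)
  have b2 := Nat.lt_floor_add_one ((w + 4) * (64 * (l : ℝ)))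
  rw [h2] at a1 a2
  rw [abs_le]
  have hpos : (0 : ℝ) < 64 * l := by positivity
  constructor
  · rw [neg_le, ← neg_sub, neg_neg] 
    rw [le_div_iff₀ hpos]
    nlinarith
  · rw [le_div_iff₀ hpos]
    nlinarith

theorem abstr_proof (hI : ITER) : ABSTR := by
  obtain ⟨C, hC1, hC⟩ := hI
  refine ⟨144 * C, by linarith, ?_⟩
  intro X _ R hR l N c hl hc
  have hl' : (1 : ℝ) ≤ l := by exact_mod_cast hl
  rcases Nat.lt_or_ge N 2 with hN | hN
  · -- N = 0 impossible, N = 1 trivial
    have hN1 : N = 1 := by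
      have := (c 0).pos
      omega
    subst hN1
    have hcard : Fintype.card X ≤ 1 := by
      rw [Fintype.card_le_one_iff]
      intro x x'
      by_contra hne
      obtain ⟨f, hf, hf1⟩ := hR.sep x x' hne
      have h1 := abs_le.mp (hc f hf 0 hR.zero (Subsingleton.elim _ _) x)
      have h2 := abs_le.mp (hc f hf 0 hR.zero (Subsingleton.elim _ _) x')
      have h3 : 1 / (64 * (l : ℝ)) ≤ 1 / 64 :=
        one_div_le_one_div_of_le (by norm_num) (by linarith)
      simp only [Pi.zero_apply, sub_zero] at h1 h2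
      linarith [h1.2, h2.1]
    have h4 : Real.log (Fintype.card X) ≤ 0 :=
      Real.log_nonpos (by positivity) (by exact_mod_cast hcard)
    have h5 : 0 ≤ 144 * C * (l : ℝ) ^ 3 * Real.log ((1 : ℕ) : ℝ) ^ (1 + 1 / (l : ℝ)) := by
      have : 0 ≤ Real.log ((1 : ℕ) : ℝ) := by simp
      positivity
    linarith
  · have hN' : (2 : ℝ) ≤ N := by exact_mod_cast hN
    have hlab : Lab R (N * (512 * l + 1)) (1 / (64 * l))
        (fun f x => finProdFinEquiv (c f, bin l (f x))) := by
      intro f hf g hg x y hxy z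
      have h1 := finProdFinEquiv.injective hxy
      rw [Prod.mk.injEq] at h1
      have h2 := abs_le.mp (hc f hf g hg h1.1 z)
      have h3 := abs_le.mp (bin_eq hl (hR.bdd f hf x) (hR.bdd g hg y) h1.2)
      rw [abs_le]
      constructor <;> linarith [h2.1, h2.2, h3.1, h3.2]
    have h6 := hC X R hR l (N * (512 * l + 1)) _ hl (by nlinarith) hlab
    have hlogN : Real.log 2 ≤ Real.log N := Real.log_le_log (by norm_num) hN'
    have hlog2 : 0 < Real.log 2 := Real.log_pos (by norm_num)
    have h7 : Real.log ((N * (512 * l + 1) : ℕ) : ℝ) ≤ 12 * l * Real.log N := by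
      push_cast
      rw [Real.log_mul (by positivity) (by positivity)]
      have h8 : Real.log (512 * (l : ℝ) + 1) ≤ 11 * l * Real.log 2 := by
        have h9 : Real.log (512 * (l : ℝ) + 1) ≤ Real.log ((2 : ℝ) ^ 10 * 2 ^ l) := by
          apply Real.log_le_log (by positivity)
          have h10 : (l : ℝ) ≤ 2 ^ l := by exact_mod_cast (Nat.lt_two_pow_self).le
          nlinarith
        rw [Real.log_mul (by positivity) (by positivity), Real.log_pow, Real.log_pow] at h9
        push_cast at h9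
        nlinarith
      nlinarith
    have h11 : 0 ≤ Real.log ((N * (512 * l + 1) : ℕ) : ℝ) := Real.log_natCast_nonneg _
    have h12 : Real.log ((N * (512 * l + 1) : ℕ) : ℝ) ^ (1 + 1 / (l : ℝ)) ≤
        144 * (l : ℝ) ^ 2 * Real.log N ^ (1 + 1 / (l : ℝ)) := by
      calc _ ≤ (12 * l * Real.log N) ^ (1 + 1 / (l : ℝ)) :=
            Real.rpow_le_rpow h11 h7 (by positivity)
        _ = (12 * (l : ℝ)) ^ (1 + 1 / (l : ℝ)) * Real.log N ^ (1 + 1 / (l : ℝ)) :=
            Real.mul_rpow (by positivity) (by linarith)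
        _ ≤ (12 * (l : ℝ)) ^ (2 : ℝ) * Real.log N ^ (1 + 1 / (l : ℝ)) := by
            apply mul_le_mul_of_nonneg_right _ (Real.rpow_nonneg (by linarith) _)
            apply Real.rpow_le_rpow_of_exponent_le (by linarith)
            have : 1 / (l : ℝ) ≤ 1 := by
              rw [div_le_one (by linarith)]
              exact hl'
            linarith
        _ = _ := by
            congr 1
            norm_cast
            push_cast
            ring
    calc _ ≤ _ := h6
      _ ≤ C * l * (144 * (l : ℝ) ^ 2 * Real.log N ^ (1 + 1 / (l : ℝ))) := by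
          apply mul_le_mul_of_nonneg_left h12
          positivity
      _ = _ := by ring

end Vale.Agent.P126.AB
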