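import Vale.Agent.P126.Mods

/-! basic facts on symmetric convex bodies -/

namespace Vale.Agent.P126.Bas

open Set Vale.Agent.P126

variable {n : ℕ}

lemma ball_sub {L : Set (E n)} (hL : IsBody L) : ∃ r : ℝ, 0 < r ∧ Metric.ball (0 : E n) r ⊆ L := by
  obtain ⟨x, hx⟩ := hL.int
  rw [mem_interior_iff_mem_nhds, Metric.mem_nhds_iff] at hx
  obtain ⟨r, hr, hsub⟩ := hx
  refine ⟨r, hr, ?_⟩
  intro z hz
  rw [mem_ball_zero_iff] at hz
  have h1 : x + z ∈ L := hsub (by rw [Metric.mem_ball, dist_eq_norm]; simpa using hz)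
  have h2 : -(x - z) ∈ L := hL.symm _ (hsub (by rw [Metric.mem_ball, dist_eq_norm]; simpa using hz))
  have h3 := hL.convex h1 h2 (by norm_num : (0 : ℝ) ≤ 1 / 2) (by norm_num : (0 : ℝ) ≤ 1 / 2)
    (by norm_num)
  have h4 : (1 / 2 : ℝ) • (x + z) + (1 / 2 : ℝ) • (-(x - z)) = z := by
    module
  rwa [h4] at h3

lemma zero_mem {L : Set (E n)} (hL : IsBody L) : (0 : E n) ∈ L := by
  obtain ⟨r, hr, h⟩ := ball_sub hL
  exact h (Metric.mem_ball_self hr)

lemma bound {K : Set (E n)} (hK : IsBody K) : ∃ R : ℝ, 0 < R ∧ ∀ x ∈ K, ‖x‖ ≤ R := by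
  obtain ⟨R, hR⟩ := hK.compact.isBounded.exists_norm_le
  exact ⟨max R 1, by positivity, fun x hx => (hR x hx).trans (le_max_left _ _)⟩

lemma mem_dil {K : Set (E n)} {t : ℝ} (ht : t ≠ 0) (x : E n) : x ∈ dil t K ↔ t⁻¹ • x ∈ K := by
  constructor
  · rintro ⟨y, hy, rfl⟩
    rwa [smul_smul, inv_mul_cancel₀ ht, one_smul]
  · intro h
    exact ⟨_, h, by rw [smul_smul, mul_inv_cancel₀ ht, one_smul]⟩

lemma dil_symm {K : Set (E n)} (hK : IsBody K) (t : ℝ) (x : E n) (hx : x ∈ dil t K) :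
    -x ∈ dil t K := by
  obtain ⟨y, hy, rfl⟩ := hx
  exact ⟨-y, hK.symm y hy, by simp⟩

lemma dil_one (K : Set (E n)) : dil 1 K = K := by
  ext x
  rw [mem_dil one_ne_zero]
  simp

/-- finite maximal separated subsets -/
lemma max_sep (A : Set (E n)) (hA : Bornology.IsBounded A) (C : E n → E n → Prop) (r : ℝ)
    (hr : 0 < r) (hC : ∀ a b, ‖a - b‖ < r → C a b) (hsym : ∀ a b, C a b → C b a) :
    ∃ X : Finset (E n), (∀ x ∈ X, x ∈ A) ∧ (∀ x ∈ X, ∀ y ∈ X, x ≠ y → ¬ C x y) ∧
      ∀ a ∈ A, ∃ x ∈ X, C a x := by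
  classical
  have htb : TotallyBounded A := by
    exact (hA.isCompact_closure.totallyBounded).subset subset_closure
  obtain ⟨F, hFfin, hF⟩ := Metric.totallyBounded_iff.1 htb (r / 2) (by positivity)
  set P : ℕ → Prop := fun m => ∃ X : Finset (E n), X.card = m ∧ (∀ x ∈ X, x ∈ A) ∧
    (∀ x ∈ X, ∀ y ∈ X, x ≠ y → ¬ C x y) with hP
  have hbd : ∀ m, P m → m ≤ hFfin.toFinset.card := by
    rintro m ⟨X, rfl, hXA, hXs⟩
    have h1 : ∀ x ∈ X, ∃ c ∈ hFfin.toFinset, x ∈ Metric.ball c (r / 2) := by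
      intro x hx
      have := hF (hXA x hx)
      rw [mem_iUnion₂] at this
      obtain ⟨c, hc, hxc⟩ := this
      exact ⟨c, hFfin.mem_toFinset.2 hc, hxc⟩
    choose! f hf1 hf2 using h1
    apply Finset.card_le_card_of_injOn f hf1
    intro x hx y hy hxy
    by_contra hne
    apply hXs x hx y hy hne
    apply hC
    have h2 := hf2 x hx
    have h3 := hf2 y hy
    rw [hxy] at h2
    rw [Metric.mem_ball] at h2 h3
    rw [← dist_eq_norm]
    calc dist x y ≤ dist x (f y) + dist y (f y) := dist_triangle_right _ _ _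
      _ < r := by linarith
  have h0 : P 0 := ⟨∅, rfl, by simp, by simp⟩
  have hmax := Nat.findGreatest_spec (P := P) (Nat.zero_le hFfin.toFinset.card) h0
  obtain ⟨X, hXc, hXA, hXs⟩ := hmax
  refine ⟨X, hXA, hXs, ?_⟩
  intro a ha
  by_contra hcon
  push Not at hcon
  have haX : a ∉ X := by
    intro h
    exact hcon a h (hC a a (by simpa using hr))
  have h2 : P (X.card + 1) := by
    refine ⟨insert a X, Finset.card_insert_of_notMem haX, ?_, ?_⟩
    · intro x hx
      rcases Finset.mem_insert.1 hx with rfl | h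
      · exact ha
      · exact hXA x h
    · intro x hx y hy hxy
      rcases Finset.mem_insert.1 hx with rfl | h
      · rcases Finset.mem_insert.1 hy with rfl | h'
        · exact absurd rfl hxy
        · exact hcon y h'
      · rcases Finset.mem_insert.1 hy with rfl | h'
        · exact fun h4 => hcon x h (hsym _ _ h4)
        · exact hXs x h y h' hxy
  have h3 := Nat.le_findGreatest (hbd _ h2) h2
  omega

end Vale.Agent.P126.Bas
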