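import Vale.Agent.P126.Mods

namespace Vale.Agent.P126.BS

open Finset

lemma exp_quad (u : ℝ) (hu : |u| ≤ 1) : Real.exp (-u) ≤ 1 - u + u ^ 2 := by
  have h := Real.abs_exp_sub_one_sub_id_le (x := -u) (by rwa [abs_neg])
  have := (abs_le.mp h).2
  nlinarith

theorem base_proof (hM : MINIMAX) : BASE := by
  intro X _ R hR nu h0 h1 h2
  obtain ⟨F, hF, hFz⟩ := hM X R hR nu h0 h1 h2
  refine ⟨F, hF, fun z => ?_⟩
  have h3 : ∀ x, nu x * Real.exp (-(1 / 512 * (F x x - F x z))) ≤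
      nu x * (1 + 64 / 512 ^ 2) - (1 / 512) * (nu x * (F x x - F x z)) := by
    intro x
    have h4 := abs_le.mp (hR.bdd _ (hF x) x)
    have h5 := abs_le.mp (hR.bdd _ (hF x) z)
    have h6 := exp_quad (1 / 512 * (F x x - F x z)) (by
      rw [abs_le]
      constructor <;> linarith)
    have h7 : (1 / 512 * (F x x - F x z)) ^ 2 ≤ 64 / 512 ^ 2 := by
      have : (F x x - F x z) ^ 2 ≤ 64 := by nlinarith
      nlinarith
    have := mul_le_mul_of_nonneg_left (h6.trans (by linarith :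
      _ ≤ 1 - 1 / 512 * (F x x - F x z) + 64 / 512 ^ 2)) (h0 x)
    linarith
  refine (Finset.sum_le_sum fun x _ => h3 x).trans ?_
  rw [Finset.sum_sub_distrib, ← Finset.sum_mul, ← Finset.mul_sum, h1]
  have h8 := hFz z
  have h9 := Real.add_one_le_exp (-((1 : ℝ) / 512 * (1 / 8)))
  refine le_trans ?_ h9
  linarith

end Vale.Agent.P126.BS
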