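import Vale.Agent.P126.Mods

namespace Vale.Agent.P126.Bot

open Set

theorem both_proof (hHalf : HALF) (hPolar : POLAR) (hCover : COVER) : BOTH := by
  obtain ⟨C, hC1, hC⟩ := hHalf
  refine ⟨C, hC1, ?_⟩
  intro n K L hK hL l hl
  refine ⟨hC n K L hK hL l hl, ?_⟩
  have hl0 : (0 : ℝ) < (l : ℝ) := by exact_mod_cast hl
  have ht : (0 : ℝ) < 1024 * (l : ℝ) := by positivity
  obtain ⟨hKb, hKpp, _, _⟩ := hPolar n K hK
  obtain ⟨hLb, hLpp, _, _⟩ := hPolar n L hL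
  obtain ⟨_, _, _, hdil⟩ := hPolar n (polar K) hKb
  obtain ⟨hb, hp⟩ := hdil (1024 * (l : ℝ)) ht
  have h := hC n (polar L) (dil (1024 * (l : ℝ)) (polar K)) hLb hb l hl
  rw [hp, hKpp, hLpp, one_div (1024 * (l : ℝ)),
    (hCover n K L hK hL).2 (1024 * (l : ℝ))⁻¹ (inv_pos.mpr ht)] at h
  exact h

end Vale.Agent.P126.Bot
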