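import Vale.Agent.P126.Mods

namespace Vale.Agent.P126.CP

open Finset

variable {X : Type} [Fintype X]

/-- The class of the label t. -/
lemma label_sum {N : ℕ} (t : X → Fin N) (h : X → ℝ) :
    ∑ x, h x = ∑ i : Fin N, ∑ x, (if t x = i then h x else 0) := by
  classical
  rw [Finset.sum_comm]
  refine Finset.sum_congr rfl fun x _ => ?_
  simp

/-- CLAIM(s). -/
lemma claim (R : Set (X → ℝ)) (hR : RSet R) (N : ℕ) (d lam m eta : ℝ)
    (lab : (X → ℝ) → X → Fin N) (hlab : Lab R N d lab) (hlam : 0 < lam)
    (heta : 0 < eta) (hN : 1 ≤ N) (hG : Good R lam m eta) (s : ℕ) :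
    ∀ (e : ℝ) (nu : X → ℝ), 0 ≤ e → (∀ x, 0 ≤ nu x) → (∀ x, nu x ≤ e) →
      ∃ f : X → X → ℝ, (∀ x, f x ∈ R) ∧ ∀ z,
        ∑ x, nu x * Real.exp (-(lam * s * (f x x - f x z))) ≤
          (∑ x, nu x) * Real.exp (-(lam * (m - 3 * d))) ^ s +
            (e / eta) * ((N : ℝ) * Real.exp (8 * lam)) ^ s := by
  classical
  have hW : 1 ≤ (N : ℝ) * Real.exp (8 * lam) := by
    have h1 : (1 : ℝ) ≤ N := by exact_mod_cast hN
    have h2 : (1 : ℝ) ≤ Real.exp (8 * lam) := Real.one_le_exp (by positivity)
    nlinarith
  induction s with
  | zero =>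
    intro e nu he h0 h1
    refine ⟨fun _ => 0, fun _ => hR.zero, fun z => ?_⟩
    have : 0 ≤ e / eta := by positivity
    simp
    linarith
  | succ s ih =>
    intro e nu he h0 h1
    have hS : 0 ≤ ∑ x, nu x := Finset.sum_nonneg fun x _ => h0 x
    have heE : 0 ≤ e / eta := by positivity
    by_cases hbad : ∃ x, eta * (∑ x, nu x) ≤ nu x
    · -- trivial case
      obtain ⟨x, hx⟩ := hbad
      refine ⟨fun _ => 0, fun _ => hR.zero, fun z => ?_⟩
      have hle : ∑ x, nu x ≤ e / eta := by
        rw [le_div_iff₀ heta]
        calc (∑ x, nu x) * eta = eta * (∑ x, nu x) := by ring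
          _ ≤ nu x := hx
          _ ≤ e := h1 x
      have hWs : 1 ≤ ((N : ℝ) * Real.exp (8 * lam)) ^ (s + 1) := one_le_pow₀ hW
      have hρ : 0 ≤ (∑ x, nu x) * Real.exp (-(lam * (m - 3 * d))) ^ (s + 1) := by positivity
      have : e / eta ≤ (e / eta) * ((N : ℝ) * Real.exp (8 * lam)) ^ (s + 1) := by
        nlinarith
      simp only [Pi.zero_apply, sub_self, mul_zero, neg_zero, Real.exp_zero, mul_one]
      linarith
    · push Not at hbad
      by_cases hX : IsEmpty X
      · refine ⟨fun _ => 0, fun _ => hR.zero, fun z => ?_⟩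
        exact (hX.false z).elim
      rw [not_isEmpty_iff] at hX
      obtain ⟨x1⟩ := hX
      have hSpos : 0 < ∑ x, nu x := by
        rcases lt_or_eq_of_le hS with h | h
        · exact h
        · exfalso
          have h2 := hbad x1
          rw [← h, mul_zero] at h2
          exact absurd h2 (not_lt.mpr (h0 x1))
      set S := ∑ x, nu x with hSdef
      obtain ⟨F, hF, hFz⟩ := hG (fun x => nu x / S) (fun x => div_nonneg (h0 x) hS)
        (by rw [← Finset.sum_div]; exact div_self hSpos.ne')
        (fun x => by
          rw [div_le_iff₀ hSpos]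
          exact (hbad x).le)
      -- labels
      set t : X → Fin N := fun x => lab (F x) x with ht
      have hchoice : ∀ i : Fin N, ∃ f : X → X → ℝ, (∀ x, f x ∈ R) ∧ ∀ z,
          ∑ x, (if t x = i then nu x else 0) * Real.exp (-(lam * s * (f x x - f x z))) ≤
            (∑ x, (if t x = i then nu x else 0)) * Real.exp (-(lam * (m - 3 * d))) ^ s +
              (e / eta) * ((N : ℝ) * Real.exp (8 * lam)) ^ s := by
        intro i
        refine ih e (fun x => if t x = i then nu x else 0) he ?_ ?_
        · intro x
          split_ifs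
          · exact h0 x
          · exact le_rfl
        · intro x
          split_ifs
          · exact h1 x
          · exact he
      choose g hg hgz using hchoice
      have hs1 : (0 : ℝ) < (s : ℝ) + 1 := by positivity
      refine ⟨fun x => (1 / ((s : ℝ) + 1)) • F x + ((s : ℝ) / ((s : ℝ) + 1)) • g (t x) x,
        fun x => hR.convex (hF x) (hg _ _) (by positivity) (by positivity)
          (by field_simp; ring), fun z => ?_⟩
      -- pointwise identity
      have hid : ∀ x, nu x * Real.exp (-(lam * ((s + 1 : ℕ) : ℝ) *
          (((1 / ((s : ℝ) + 1)) • F x + ((s : ℝ) / ((s : ℝ) + 1)) • g (t x) x) x -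
            ((1 / ((s : ℝ) + 1)) • F x + ((s : ℝ) / ((s : ℝ) + 1)) • g (t x) x) z))) =
          nu x * (Real.exp (-(lam * (F x x - F x z))) *
            Real.exp (-(lam * s * (g (t x) x x - g (t x) x z)))) := by
        intro x
        congr 1
        rw [← Real.exp_add]
        congr 1
        simp only [Pi.add_apply, Pi.smul_apply, smul_eq_mul]
        push_cast
        field_simp
        ring
      rw [Finset.sum_congr rfl fun x _ => hid x]
      rw [label_sum t]
      -- the weights a_i
      have hA : ∀ i : Fin N, ∃ a : ℝ, 0 ≤ a ∧ a ≤ Real.exp (8 * lam) ∧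
          (∀ x, t x = i → Real.exp (-(lam * (F x x - F x z))) ≤ a) ∧
          (∀ x, t x = i → a ≤ Real.exp (3 * lam * d) * Real.exp (-(lam * (F x x - F x z)))) := by
        intro i
        by_cases hne : (Finset.univ.filter fun x => t x = i).Nonempty
        · obtain ⟨x0, hx0, hmax⟩ := Finset.exists_max_image
            (Finset.univ.filter fun x => t x = i)
            (fun x => Real.exp (-(lam * (F x x - F x z)))) hne
          refine ⟨Real.exp (-(lam * (F x0 x0 - F x0 z))), (Real.exp_pos _).le, ?_, ?_, ?_⟩
          · apply Real.exp_le_exp.mpr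
            have h3 := abs_le.mp (hR.bdd _ (hF x0) x0)
            have h4 := abs_le.mp (hR.bdd _ (hF x0) z)
            nlinarith
          · intro x hx
            exact hmax x (by simp [hx])
          · intro x hx
            rw [← Real.exp_add]
            apply Real.exp_le_exp.mpr
            have hx0' : t x0 = i := by simpa using hx0
            have h3 := abs_le.mp (hlab (F x) (hF x) (F x0) (hF x0) x x0 (by
              change t x = t x0
              rw [hx, hx0']) z)
            nlinarith
        · refine ⟨0, le_rfl, (Real.exp_pos _).le, ?_, ?_⟩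
          · intro x hx
            exact absurd ⟨x, by simp [hx]⟩ hne
          · intro x hx
            exact absurd ⟨x, by simp [hx]⟩ hne
      choose a ha0 ha8 hamax hamin using hA
      have hstep : ∀ i : Fin N,
          ∑ x, (if t x = i then nu x * (Real.exp (-(lam * (F x x - F x z))) *
            Real.exp (-(lam * s * (g (t x) x x - g (t x) x z)))) else 0) ≤
          (∑ x, (if t x = i then Real.exp (3 * lam * d) *
            (nu x * Real.exp (-(lam * (F x x - F x z)))) else 0)) *
              Real.exp (-(lam * (m - 3 * d))) ^ s +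
            Real.exp (8 * lam) * ((e / eta) * ((N : ℝ) * Real.exp (8 * lam)) ^ s) := by
        intro i
        have h5 : ∑ x, (if t x = i then nu x * (Real.exp (-(lam * (F x x - F x z))) *
            Real.exp (-(lam * s * (g (t x) x x - g (t x) x z)))) else 0) ≤
            a i * ∑ x, (if t x = i then nu x else 0) *
              Real.exp (-(lam * s * (g i x x - g i x z))) := by
          rw [Finset.mul_sum]
          refine Finset.sum_le_sum fun x _ => ?_
          split_ifs with hx
          · rw [hx]
            have h6 := hamax i x hx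
            have h7 : 0 ≤ nu x * Real.exp (-(lam * s * (g i x x - g i x z))) :=
              mul_nonneg (h0 x) (Real.exp_pos _).le
            nlinarith
          · simp
        have h8 := mul_le_mul_of_nonneg_left (hgz i z) (ha0 i)
        have h9 : a i * ∑ x, (if t x = i then nu x else 0) ≤
            ∑ x, (if t x = i then Real.exp (3 * lam * d) *
              (nu x * Real.exp (-(lam * (F x x - F x z)))) else 0) := by
          rw [Finset.mul_sum]
          refine Finset.sum_le_sum fun x _ => ?_
          split_ifs with hx
          · have h10 := hamin i x hx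
            have h11 := mul_le_mul_of_nonneg_right h10 (h0 x)
            nlinarith
          · simp
        have hρ : 0 ≤ Real.exp (-(lam * (m - 3 * d))) ^ s := by positivity
        have h12 := mul_le_mul_of_nonneg_right h9 hρ
        have hWs : 0 ≤ (e / eta) * ((N : ℝ) * Real.exp (8 * lam)) ^ s := by positivity
        have h13 := mul_le_mul_of_nonneg_right (ha8 i) hWs
        calc _ ≤ _ := h5
          _ ≤ _ := h8
          _ = (a i * ∑ x, (if t x = i then nu x else 0)) *
                Real.exp (-(lam * (m - 3 * d))) ^ s +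
              a i * ((e / eta) * ((N : ℝ) * Real.exp (8 * lam)) ^ s) := by ring
          _ ≤ _ := add_le_add h12 h13
      refine (Finset.sum_le_sum fun i _ => hstep i).trans ?_
      rw [Finset.sum_add_distrib, ← Finset.sum_mul]
      have h14 : ∑ i : Fin N, ∑ x, (if t x = i then Real.exp (3 * lam * d) *
            (nu x * Real.exp (-(lam * (F x x - F x z)))) else 0) =
          Real.exp (3 * lam * d) * ∑ x, nu x * Real.exp (-(lam * (F x x - F x z))) := by
        rw [Finset.mul_sum, ← label_sum t]
      rw [h14]
      have h15 : ∑ x, nu x * Real.exp (-(lam * (F x x - F x z))) ≤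
          S * Real.exp (-(lam * m)) := by
        have h16 := hFz z
        have h17 : ∑ x, nu x / S * Real.exp (-(lam * (F x x - F x z))) =
            (∑ x, nu x * Real.exp (-(lam * (F x x - F x z)))) / S := by
          rw [Finset.sum_div]
          refine Finset.sum_congr rfl fun x _ => ?_
          ring
        rw [h17, div_le_iff₀ hSpos] at h16
        linarith
      have h18 : Real.exp (3 * lam * d) * ∑ x, nu x * Real.exp (-(lam * (F x x - F x z))) ≤
          S * Real.exp (-(lam * (m - 3 * d))) := by
        have h19 : Real.exp (-(lam * (m - 3 * d))) =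
            Real.exp (3 * lam * d) * Real.exp (-(lam * m)) := by
          rw [← Real.exp_add]
          congr 1
          ring
        rw [h19]
        have := mul_le_mul_of_nonneg_left h15 (Real.exp_pos (3 * lam * d)).le
        linarith
      have hρ : 0 ≤ Real.exp (-(lam * (m - 3 * d))) ^ s := by positivity
      have h20 := mul_le_mul_of_nonneg_right h18 hρ
      have h21 : ∑ _i : Fin N, Real.exp (8 * lam) *
          ((e / eta) * ((N : ℝ) * Real.exp (8 * lam)) ^ s) =
          (e / eta) * ((N : ℝ) * Real.exp (8 * lam)) ^ (s + 1) := by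
        rw [Finset.sum_const, Finset.card_univ, Fintype.card_fin, nsmul_eq_mul, pow_succ]
        ring
      rw [h21]
      calc _ ≤ S * Real.exp (-(lam * (m - 3 * d))) * Real.exp (-(lam * (m - 3 * d))) ^ s +
            (e / eta) * ((N : ℝ) * Real.exp (8 * lam)) ^ (s + 1) := by linarith
        _ = _ := by rw [pow_succ]; ring

theorem compose_proof : COMPOSE := by
  intro X _ R hR N Q d lam m eta lab hlab hd hlam heta hQ hN hG nu h0 h1 h2
  have hQ' : (0 : ℝ) < Q := by exact_mod_cast hQ
  have hN' : (0 : ℝ) < N := by exact_mod_cast hN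
  set e := eta * Real.exp (-(Q * lam * m)) * (Q * lam * d) /
    ((N : ℝ) * Real.exp (8 * lam)) ^ Q with he
  have he0 : 0 ≤ e := by positivity
  obtain ⟨f, hf, hfz⟩ := claim R hR N d lam m eta lab hlab hlam heta hN hG Q e nu he0 h0 h2
  refine ⟨f, hf, fun z => ?_⟩
  have h3 := hfz z
  rw [h1, one_mul] at h3
  have h4 : (e / eta) * ((N : ℝ) * Real.exp (8 * lam)) ^ Q =
      Real.exp (-(Q * lam * m)) * (Q * lam * d) := by
    rw [he]
    field_simp
  rw [h4, ← Real.exp_nat_mul] at h3
  have h5 : (∑ x, nu x * Real.exp (-(Q * lam * (f x x - f x z)))) =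
      ∑ x, nu x * Real.exp (-(lam * Q * (f x x - f x z))) := by
    refine Finset.sum_congr rfl fun x _ => ?_
    ring_nf
  rw [h5]
  refine h3.trans ?_
  have h6 : Real.exp (-(Q * lam * (m - 4 * d))) =
      Real.exp (Q * (-(lam * (m - 3 * d)))) * Real.exp (Q * lam * d) := by
    rw [← Real.exp_add]
    congr 1
    ring
  rw [h6]
  have h7 : Q * lam * d + 1 ≤ Real.exp (Q * lam * d) := Real.add_one_le_exp _
  have h8 : Real.exp (-(Q * lam * m)) ≤ Real.exp (Q * (-(lam * (m - 3 * d)))) := by
    apply Real.exp_le_exp.mpr
    have : 0 ≤ Q * lam * d := by positivity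
    nlinarith
  have h9 : 0 ≤ Q * lam * d := by positivity
  have h10 := Real.exp_pos (Q * (-(lam * (m - 3 * d))))
  nlinarith [mul_le_mul_of_nonneg_right h8 h9, mul_le_mul_of_nonneg_left h7 h10.le]

end Vale.Agent.P126.CP
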