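import Vale.Agent.P126.Mods

namespace Vale.Agent.P126.CL

open Set

lemma coverNum_mono {n : ℕ} (hC : COVER) (A B B' : Set (E n)) (hA : IsBody A) (hB : IsBody B)
    (hBB : B ⊆ B') : coverNum A B' ≤ coverNum A B := by
  obtain ⟨s, hs, hcov⟩ := (hC n A B hA hB).1
  apply Nat.sInf_le
  refine ⟨s, hs, fun a ha => ?_⟩
  obtain ⟨x, hx, hx'⟩ := hcov a ha
  exact ⟨x, hx, hBB hx'⟩

lemma zero_mem {n : ℕ} {K : Set (E n)} (hK : IsBody K) : (0 : E n) ∈ K := by
  obtain ⟨b, hb⟩ := hK.int
  have hb' := interior_subset hb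
  have := hK.convex hb' (hK.symm b hb') (by norm_num : (0 : ℝ) ≤ 1 / 2)
    (by norm_num : (0 : ℝ) ≤ 1 / 2) (by norm_num)
  simpa using this

lemma dil_mono {n : ℕ} {K : Set (E n)} (hK : IsBody K) {s t : ℝ} (hs : 0 ≤ s) (hst : s ≤ t) :
    dil s K ⊆ dil t K := by
  rintro _ ⟨x, hx, rfl⟩
  rcases eq_or_lt_of_le (hs.trans hst) with h | h
  · have hs0 : s = 0 := le_antisymm (by rw [h]; exact hst) hs
    exact ⟨x, hx, by rw [hs0, ← h]⟩
  · refine ⟨(s / t) • x, ?_, ?_⟩
    · have := hK.convex hx (zero_mem hK) (by positivity : (0 : ℝ) ≤ s / t)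
        (by
          rw [sub_nonneg, div_le_one h]
          exact hst : (0 : ℝ) ≤ 1 - s / t) (by ring)
      simpa using this
    · rw [smul_smul]
      congr 1
      field_simp

/-- The three parts of the final statement. -/
theorem final (hC : COVER) (hP : POLAR) (hB : BOTH) :
    (∃ C : ℝ, 1 ≤ C ∧ ∀ (n : ℕ) (K L : Set (E n)), IsBody K → IsBody L → ∀ l : ℕ, 1 ≤ l →
      Real.log (coverNum K L) ≤ C * (l : ℝ) ^ 5 *
        Real.log (coverNum (polar L) (dil (C * l)⁻¹ (polar K))) ^ (1 + 1 / (l : ℝ)) ∧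
      Real.log (coverNum (polar L) (dil (C * l) (polar K))) ≤ C * (l : ℝ) ^ 5 *
        Real.log (coverNum K L) ^ (1 + 1 / (l : ℝ))) ∧
    (∀ ε : ℝ, 0 < ε → ∃ a b : ℝ, 1 ≤ a ∧ 1 ≤ b ∧
      ∀ (n : ℕ) (K L : Set (E n)), IsBody K → IsBody L →
        Real.log (coverNum K L) ≤
          b * Real.log (coverNum (polar L) (dil a⁻¹ (polar K))) ^ (1 + ε) ∧
        Real.log (coverNum (polar L) (dil a (polar K))) ≤
          b * Real.log (coverNum K L) ^ (1 + ε)) ∧
    (∃ C : ℝ, 1 ≤ C ∧ ∀ (n : ℕ) (K L : Set (E n)), IsBody K → IsBody L →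
      ∀ s : ℝ, s = 1 + Real.log (1 + Real.log (coverNum K L)) →
      Real.log (coverNum K L) ≤
        C * s ^ 5 * Real.log (coverNum (polar L) (dil (C * s)⁻¹ (polar K))) ∧
      Real.log (coverNum (polar L) (dil (C * s) (polar K))) ≤
        C * s ^ 5 * Real.log (coverNum K L)) := by
  obtain ⟨C, hC1, hCC⟩ := hB
  have hlognn : ∀ m : ℕ, 0 ≤ Real.log m := fun m => Real.log_natCast_nonneg m
  -- monotonicity in the scale
  have hmono : ∀ (n : ℕ) (K L : Set (E n)), IsBody K → IsBody L → ∀ s t : ℝ, 0 < s → s ≤ t →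
      Real.log (coverNum (polar L) (dil t (polar K))) ≤
        Real.log (coverNum (polar L) (dil s (polar K))) := by
    intro n K L hK hL s t hs hst
    have hpK := (hP n K hK).1
    have hpL := (hP n L hL).1
    have h1 := coverNum_mono hC (polar L) (dil s (polar K)) (dil t (polar K)) hpL
      ((hP n _ hpK).2.2.2 s hs).1 (dil_mono hpK hs.le hst)
    rcases Nat.eq_zero_or_pos (coverNum (polar L) (dil t (polar K))) with h | h
    · rw [h]
      simpa using hlognn _
    · exact Real.log_le_log (by exact_mod_cast h) (by exact_mod_cast h1)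
  refine ⟨⟨1024 * C, by linarith, ?_⟩, ?_, ?_⟩
  · intro n K L hK hL l hl
    have hl' : (1 : ℝ) ≤ l := by exact_mod_cast hl
    obtain ⟨h1, h2⟩ := hCC n K L hK hL l hl
    have h3 := hmono n K L hK hL (1024 * C * l)⁻¹ (1 / (1024 * (l : ℝ))) (by positivity) (by
      rw [one_div]
      apply inv_anti₀ (by positivity)
      nlinarith)
    have h4 := hmono n K L hK hL (1024 * (l : ℝ)) (1024 * C * l) (by positivity) (by nlinarith)
    constructor
    · refine h1.trans ?_
      apply mul_le_mul _ _ (Real.rpow_nonneg (hlognn _) _) (by positivity)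
      · apply mul_le_mul_of_nonneg_right _ (by positivity)
        linarith
      · exact Real.rpow_le_rpow (hlognn _) h3 (by positivity)
    · refine h4.trans (h2.trans ?_)
      apply mul_le_mul_of_nonneg_right _ (Real.rpow_nonneg (hlognn _) _)
      apply mul_le_mul_of_nonneg_right _ (by positivity)
      linarith
  · intro ε hε
    obtain ⟨l, hl⟩ := exists_nat_ge (1 / ε)
    have hl0 : (0 : ℝ) < l := lt_of_lt_of_le (by positivity) hl
    have hl1 : 1 ≤ l := by
      have : 0 < l := by exact_mod_cast hl0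
      omega
    have hl' : (1 : ℝ) ≤ l := by exact_mod_cast hl1
    have hle : 1 / (l : ℝ) ≤ ε := by
      rw [div_le_iff₀ hl0]
      rw [div_le_iff₀ hε] at hl
      linarith
    have hlog2 : 0 < Real.log 2 := Real.log_pos (by norm_num)
    have hlog2' : Real.log 2 ≤ 1 := by
      have := Real.log_two_lt_d9
      linarith
    -- powers of logarithms
    have hpow : ∀ m : ℕ, Real.log m ^ (1 + 1 / (l : ℝ)) ≤
        (Real.log 2 ^ (ε - 1 / (l : ℝ)))⁻¹ * Real.log m ^ (1 + ε) := by
      intro m
      rcases Nat.lt_or_ge m 2 with hm | hm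
      · have : Real.log m = 0 := by
          interval_cases m <;> simp
        rw [this, Real.zero_rpow (by positivity), Real.zero_rpow (by positivity)]
        simp
      · have hm' : Real.log 2 ≤ Real.log m :=
          Real.log_le_log (by norm_num) (by exact_mod_cast hm)
        rw [inv_mul_eq_div, le_div_iff₀ (by positivity)]
        have : Real.log m ^ (1 + ε) =
            Real.log m ^ (1 + 1 / (l : ℝ)) * Real.log m ^ (ε - 1 / (l : ℝ)) := by
          rw [← Real.rpow_add (by linarith)]
          congr 1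
          ring
        rw [this]
        apply mul_le_mul_of_nonneg_left _ (Real.rpow_nonneg (hlognn _) _)
        exact Real.rpow_le_rpow hlog2.le hm' (by linarith)
    have hb1 : 1 ≤ (Real.log 2 ^ (ε - 1 / (l : ℝ)))⁻¹ := by
      rw [one_le_inv₀ (by positivity)]
      exact Real.rpow_le_one hlog2.le hlog2' (by linarith)
    refine ⟨1024 * l, C * (l : ℝ) ^ 5 * (Real.log 2 ^ (ε - 1 / (l : ℝ)))⁻¹, by linarith, ?_, ?_⟩
    · have h5 : 1 ≤ C * (l : ℝ) ^ 5 := by
        have : (1 : ℝ) ≤ (l : ℝ) ^ 5 := one_le_pow₀ hl'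
        nlinarith
      nlinarith
    · intro n K L hK hL
      obtain ⟨h1, h2⟩ := hCC n K L hK hL l hl1
      rw [one_div (1024 * (l : ℝ))] at h1
      constructor
      · refine h1.trans ?_
        rw [mul_assoc (C * (l : ℝ) ^ 5)]
        exact mul_le_mul_of_nonneg_left (hpow _) (by positivity)
      · refine h2.trans ?_
        rw [mul_assoc (C * (l : ℝ) ^ 5)]
        exact mul_le_mul_of_nonneg_left (hpow _) (by positivity)
  · refine ⟨2048 * C, by linarith, ?_⟩
    intro n K L hK hL s hs
    set k := Real.log (coverNum K L) with hk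
    have hk0 : 0 ≤ k := hlognn _
    have hlog0 : 0 ≤ Real.log (1 + k) := Real.log_nonneg (by linarith)
    have hs1 : 1 ≤ s := by linarith
    set l := ⌈s⌉₊ with hl
    have hsl : s ≤ l := Nat.le_ceil s
    have hls : (l : ℝ) ≤ 2 * s := by
      have := Nat.ceil_lt_add_one (show 0 ≤ s by linarith)
      linarith
    have hl' : (1 : ℝ) ≤ l := by linarith
    have hl1 : 1 ≤ l := by exact_mod_cast hl'
    obtain ⟨h1, h2⟩ := hCC n K L hK hL l hl1
    have h3 := hmono n K L hK hL (2048 * C * s)⁻¹ (1 / (1024 * (l : ℝ))) (by positivity) (by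
      rw [one_div]
      apply inv_anti₀ (by positivity)
      nlinarith)
    have h4 := hmono n K L hK hL (1024 * (l : ℝ)) (2048 * C * s) (by positivity) (by nlinarith)
    -- k^(1/l) <= e
    have hke : k ^ (1 / (l : ℝ)) ≤ Real.exp 1 := by
      calc k ^ (1 / (l : ℝ)) ≤ (1 + k) ^ (1 / (l : ℝ)) :=
            Real.rpow_le_rpow hk0 (by linarith) (by positivity)
        _ = Real.exp (Real.log (1 + k) * (1 / (l : ℝ))) := Real.rpow_def_of_pos (by linarith) _
        _ ≤ Real.exp 1 := by
            apply Real.exp_le_exp.mpr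
            rw [mul_one_div, div_le_one (by linarith)]
            linarith
    have he : Real.exp 1 ≤ 3 := by
      have := Real.exp_one_lt_d9
      linarith
    have hl5 : (l : ℝ) ^ 5 ≤ 32 * s ^ 5 := by
      calc (l : ℝ) ^ 5 ≤ (2 * s) ^ 5 := pow_le_pow_left₀ (by positivity) hls 5
        _ = 32 * s ^ 5 := by ring
    have hs5 : 0 ≤ s ^ 5 := by positivity
    -- x^(1+1/l) <= 3 x for 0 <= x <= k
    have hx : ∀ x : ℝ, 0 ≤ x → x ≤ k → x ^ (1 + 1 / (l : ℝ)) ≤ 3 * x := by
      intro x hx0 hxk
      rcases eq_or_lt_of_le hx0 with h | h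
      · rw [← h, Real.zero_rpow (by positivity)]
        simp
      · rw [Real.rpow_add h, Real.rpow_one]
        have : x ^ (1 / (l : ℝ)) ≤ k ^ (1 / (l : ℝ)) := Real.rpow_le_rpow hx0 hxk (by positivity)
        nlinarith
    constructor
    · set x := Real.log (coverNum (polar L) (dil (1 / (1024 * (l : ℝ))) (polar K))) with hxdef
      have hx0 : 0 ≤ x := hlognn _
      have h5 : k ≤ 2048 * C * s ^ 5 * x := by
        rcases le_total x k with hxk | hxk
        · calc k ≤ _ := h1
            _ ≤ C * (l : ℝ) ^ 5 * (3 * x) := mul_le_mul_of_nonneg_left (hx x hx0 hxk) (by positivity)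
            _ ≤ C * (32 * s ^ 5) * (3 * x) := by
                apply mul_le_mul_of_nonneg_right _ (by positivity)
                exact mul_le_mul_of_nonneg_left hl5 (by linarith)
            _ = (96 * C * s ^ 5) * x := by ring
            _ ≤ 2048 * C * s ^ 5 * x := by
                apply mul_le_mul_of_nonneg_right _ hx0
                nlinarith
        · have h6 : (1 : ℝ) ≤ s ^ 5 := one_le_pow₀ hs1
          have h7 : 1 ≤ 2048 * C * s ^ 5 := by nlinarith
          nlinarith
      refine h5.trans ?_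
      exact mul_le_mul_of_nonneg_left h3 (by positivity)
    · refine h4.trans (h2.trans ?_)
      calc C * (l : ℝ) ^ 5 * k ^ (1 + 1 / (l : ℝ)) ≤ C * (l : ℝ) ^ 5 * (3 * k) :=
            mul_le_mul_of_nonneg_left (hx k hk0 le_rfl) (by positivity)
        _ ≤ C * (32 * s ^ 5) * (3 * k) := by
            apply mul_le_mul_of_nonneg_right _ (by positivity)
            exact mul_le_mul_of_nonneg_left hl5 (by linarith)
        _ = (96 * C * s ^ 5) * k := by ring
        _ ≤ 2048 * C * s ^ 5 * k := by
            apply mul_le_mul_of_nonneg_right _ hk0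
            nlinarith

end Vale.Agent.P126.CL
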