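import Vale.Agent.P126.Mods

namespace Vale.Agent.P126.Cov

open Set

theorem zero_mem_int {n : ℕ} {K : Set (E n)} (h : IsBody K) : (0 : E n) ∈ interior K := by
  obtain ⟨x, hx⟩ := h.int
  have hneg : -x ∈ interior K := by
    have hopen : IsOpen (-(interior K)) := isOpen_interior.neg
    have hsub : -(interior K) ⊆ K := by
      intro y hy
      have h1 : -y ∈ K := interior_subset hy
      have := h.symm _ h1
      simpa using this
    have := interior_maximal hsub hopen
    apply this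
    simpa using hx
  have hc : Convex ℝ (interior K) := h.convex.interior
  have := hc hx hneg (a := 1/2) (b := 1/2) (by norm_num) (by norm_num) (by norm_num)
  simpa using this

theorem exists_cover {n : ℕ} {A B : Set (E n)} (hA : IsBody A) (hB : IsBody B) :
    ∃ s : Finset (E n), ∀ a ∈ A, ∃ x ∈ s, a - x ∈ B := by
  have h0 := zero_mem_int hB
  obtain ⟨t, _, ht⟩ := hA.compact.elim_nhds_subcover
    (fun x => {y | y - x ∈ interior B}) (by
      intro x _
      refine IsOpen.mem_nhds ?_ ?_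
      · exact isOpen_interior.preimage (continuous_id.sub continuous_const)
      · simpa using h0)
  refine ⟨t, ?_⟩
  intro a ha
  have := ht ha
  simp only [mem_iUnion, mem_ofPred_eq] at this
  obtain ⟨x, hx, hy⟩ := this
  exact ⟨x, hx, interior_subset hy⟩

theorem le_of_dil {n : ℕ} {A B : Set (E n)} (t : ℝ) (ht : 0 < t) (hne : ∃ s : Finset (E n), ∀ a ∈ A, ∃ x ∈ s, a - x ∈ B) :
    coverNum (dil t A) (dil t B) ≤ coverNum A B := by
  classical
  have hmem : coverNum A B ∈ {m : ℕ | ∃ s : Finset (E n), s.card = m ∧ ∀ a ∈ A, ∃ x ∈ s, a - x ∈ B} := by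
    apply Nat.sInf_mem
    obtain ⟨s, hs⟩ := hne
    exact ⟨s.card, s, rfl, hs⟩
  obtain ⟨s, hs1, hs2⟩ := hmem
  apply Nat.sInf_le
  refine ⟨s.image (fun x => t • x), ?_, ?_⟩
  · rw [Finset.card_image_of_injective, hs1]
    intro x y hxy
    exact smul_right_injective _ ht.ne' hxy
  · rintro a ⟨b, hb, rfl⟩
    obtain ⟨x, hx, hbx⟩ := hs2 b hb
    exact ⟨t • x, Finset.mem_image_of_mem _ hx, b - x, hbx, by rw [smul_sub]⟩

theorem dil_dil {n : ℕ} (s t : ℝ) (A : Set (E n)) : dil s (dil t A) = dil (s * t) A := by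
  ext y
  constructor
  · rintro ⟨x, ⟨z, hz, rfl⟩, rfl⟩
    exact ⟨z, hz, by rw [smul_smul]⟩
  · rintro ⟨z, hz, rfl⟩
    exact ⟨t • z, ⟨z, hz, rfl⟩, by rw [smul_smul]⟩

theorem dil_one {n : ℕ} (A : Set (E n)) : dil 1 A = A := by
  ext y
  constructor
  · rintro ⟨x, hx, rfl⟩
    simpa using hx
  · intro hy
    exact ⟨y, hy, by simp⟩

theorem cover_proof : COVER := by
  intro n A B hA hB
  have hne := exists_cover hA hB
  refine ⟨?_, ?_⟩
  · have hmem : coverNum A B ∈ {m : ℕ | ∃ s : Finset (E n), s.card = m ∧ ∀ a ∈ A, ∃ x ∈ s, a - x ∈ B} := by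
      apply Nat.sInf_mem
      obtain ⟨s, hs⟩ := hne
      exact ⟨s.card, s, rfl, hs⟩
    exact hmem
  · intro t ht
    apply le_antisymm (le_of_dil t ht hne)
    have hne' : ∃ s : Finset (E n), ∀ a ∈ dil t A, ∃ x ∈ s, a - x ∈ dil t B := by
      classical
      obtain ⟨s, hs⟩ := hne
      refine ⟨s.image (fun x => t • x), ?_⟩
      rintro a ⟨b, hb, rfl⟩
      obtain ⟨x, hx, hbx⟩ := hs b hb
      exact ⟨t • x, Finset.mem_image_of_mem _ hx, b - x, hbx, by rw [smul_sub]⟩
    have := le_of_dil (A := dil t A) (B := dil t B) t⁻¹ (inv_pos.mpr ht) hne'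
    rwa [dil_dil, dil_dil, inv_mul_cancel₀ ht.ne', dil_one, dil_one] at this

end Vale.Agent.P126.Cov
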