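import Mathlib

namespace Vale.Agent.P126

open Set

/-- Euclidean space of dimension n with its standard inner product. -/
abbrev E (n : ℕ) := EuclideanSpace ℝ (Fin n)

/-- K is an origin-symmetric convex body. -/
structure IsBody {n : ℕ} (K : Set (E n)) : Prop where
  convex : Convex ℝ K
  compact : IsCompact K
  int : (interior K).Nonempty
  symm : ∀ x ∈ K, -x ∈ K

/-- The polar of K. -/
def polar {n : ℕ} (K : Set (E n)) : Set (E n) := {y | ∀ x ∈ K, inner ℝ x y ≤ 1}

/-- The dilate t K. -/
def dil {n : ℕ} (t : ℝ) (K : Set (E n)) : Set (E n) := {y | ∃ x ∈ K, y = t • x}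

/-- The covering number N(A, B): the least number of translates x + B whose union contains A. -/
noncomputable def coverNum {n : ℕ} (A B : Set (E n)) : ℕ :=
  sInf {m : ℕ | ∃ s : Finset (E n), s.card = m ∧ ∀ a ∈ A, ∃ x ∈ s, a - x ∈ B}

end Vale.Agent.P126
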