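import Vale.Agent.P126.Bas

namespace Vale.Agent.P126.Dua

open Set Vale.Agent.P126 Vale.Agent.P126.Bas

variable {n : ℕ}

lemma inner_le_scale {L : Set (E n)} (hL : IsBody L) (i j : ℕ) (x s : E n)
    (hx : x ∈ dil ((4 : ℝ) ^ (i + 1)) L) (hs : s ∈ dil ((4 : ℝ) ^ j)⁻¹ (polar L)) :
    |inner ℝ x s| ≤ (4 : ℝ) ^ (i + 1) * (1 / 4) ^ j := by
  obtain ⟨x', hx', rfl⟩ := hx
  obtain ⟨s', hs', rfl⟩ := hs
  rw [inner_smul_left, inner_smul_right]
  have h1 : inner ℝ x' s' ≤ 1 := hs' x' hx'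
  have h2 : inner ℝ (-x') s' ≤ 1 := hs' _ (hL.symm _ hx')
  rw [inner_neg_left] at h2
  have h3 : |inner ℝ x' s'| ≤ 1 := abs_le.2 ⟨by linarith, h1⟩
  have h4 : ((4 : ℝ) ^ j)⁻¹ = (1 / 4) ^ j := by rw [one_div, inv_pow]
  simp only [conj_trivial]
  rw [abs_mul, abs_mul, h4, abs_of_nonneg (by positivity : (0 : ℝ) ≤ 4 ^ (i + 1)),
    abs_of_nonneg (by positivity : (0 : ℝ) ≤ (1 / 4) ^ j)]
  calc (4 : ℝ) ^ (i + 1) * ((1 / 4) ^ j * |inner ℝ x' s'|)
      ≤ (4 : ℝ) ^ (i + 1) * ((1 / 4) ^ j * 1) := by gcongr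
    _ = _ := by ring

theorem dual_proof : DUAL := by
  classical
  intro n K L hK hL l J rho hl S hS1 hS2 T hT
  set I := (Finset.range J).filter (fun j => j % (l + 6) = rho) with hI
  have hl0 : (0 : ℝ) < l := by exact_mod_cast hl
  have hmemI : ∀ j, j ∈ I → j % (l + 6) = rho := by
    intro j hj
    rw [hI, Finset.mem_filter] at hj
    exact hj.2
  -- half sums
  set u : (∀ j ∈ I, E n) → E n := fun s => (1 / 2 : ℝ) • ∑ j ∈ I.attach, s j.1 j.2 with hu
  have huL : ∀ s ∈ I.pi (fun j => S j), u s ∈ polar L := by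
    intro s hs x hx
    rw [Finset.mem_pi] at hs
    rw [hu]
    simp only
    rw [inner_smul_right, inner_sum]
    have h1 : ∀ j ∈ I.attach, inner ℝ x (s j.1 j.2) ≤ (1 / 4 : ℝ) ^ (j.1) := by
      intro j _
      obtain ⟨y, hy, hys⟩ := hS1 j.1 _ (hs j.1 j.2)
      rw [hys, inner_smul_right]
      have h2 : ((4 : ℝ) ^ j.1)⁻¹ = (1 / 4) ^ j.1 := by rw [one_div, inv_pow]
      rw [h2]
      have h3 : inner ℝ x y ≤ 1 := hy x hx
      calc (1 / 4 : ℝ) ^ j.1 * inner ℝ x y ≤ (1 / 4 : ℝ) ^ j.1 * 1 := by gcongr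
        _ = _ := mul_one _
    have h2 := Finset.sum_le_sum h1
    have h3 : ∑ j ∈ I.attach, (1 / 4 : ℝ) ^ (j.1) = ∑ j ∈ I, (1 / 4 : ℝ) ^ j :=
      Finset.sum_attach I (fun j => (1 / 4 : ℝ) ^ j)
    have h4 : ∑ j ∈ I, (1 / 4 : ℝ) ^ j ≤ ∑ j ∈ Finset.Ico 0 J, (1 / 4 : ℝ) ^ j := by
      apply Finset.sum_le_sum_of_subset_of_nonneg
      · intro j hj
        rw [hI, Finset.mem_filter, Finset.mem_range] at hj
        rw [Finset.mem_Ico]
        omega
      · intro j _ _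
        positivity
    have h5 := geom_sum_Ico_le_of_lt_one (m := 0) (n := J) (by norm_num : (0 : ℝ) ≤ 1 / 4)
      (by norm_num : (1 / 4 : ℝ) < 1)
    norm_num at h5
    norm_num at h4
    norm_num at h2 h3 ⊢
    linarith
  have hc : ∀ s ∈ I.pi (fun j => S j), ∃ x ∈ T,
      u s - x ∈ dil (1 / (1024 * (l : ℝ))) (polar K) := fun s hs => hT _ (huL s hs)
  choose! c hc1 hc2 using hc
  have hcard : (I.pi (fun j => S j)).card = ∏ j ∈ I, (S j).card := Finset.card_pi _ _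
  rw [← hcard]
  apply Finset.card_le_card_of_injOn c hc1
  intro s hs s' hs' hss
  rw [Finset.mem_coe] at hs hs'
  by_contra hne
  have hs0 := hs
  have hs0' := hs'
  rw [Finset.mem_pi] at hs hs'
  -- least index of difference
  have hex : ∃ i, ∃ hi : i ∈ I, s i hi ≠ s' i hi := by
    by_contra hcon
    push Not at hcon
    apply hne
    funext i hi
    exact hcon i hi
  set i := Nat.find hex with hidef
  obtain ⟨hiI, hine⟩ := Nat.find_spec hex
  have hmin : ∀ j (hj : j ∈ I), j < i → s j hj = s' j hj := by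
    intro j hj hji
    by_contra h
    exact Nat.find_min hex hji ⟨hj, h⟩
  obtain ⟨x, hx1, hx2, hx3⟩ := hS2 i _ (hs i hiI) _ (hs' i hiI) hine
  -- bound of the differences
  have hdiff : ∀ j (hj : j ∈ I), i < j →
      - (2 * ((4 : ℝ) ^ (i + 1) * (1 / 4) ^ j)) ≤ inner ℝ x (s j hj - s' j hj) := by
    intro j hj _
    have h1 := inner_le_scale hL i j x _ hx2 (hS1 j _ (hs j hj))
    have h2 := inner_le_scale hL i j x _ hx2 (hS1 j _ (hs' j hj))
    rw [inner_sub_right]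
    rw [abs_le] at h1 h2
    linarith [h1.1, h2.2]
  have hgap : ∀ j ∈ I, i < j → i + (l + 6) ≤ j := by
    intro j hj hij
    have h1 : j % (l + 6) = i % (l + 6) := by
      have h2 : j % (l + 6) = rho := hmemI j hj
      have h3 : i % (l + 6) = rho := hmemI i hiI
      rw [h2, h3]
    have h4 : (l + 6) ∣ (j - i) := (Nat.modEq_iff_dvd' hij.le).1 h1.symm
    have h5 := Nat.le_of_dvd (by omega) h4
    omega
  -- the sum
  have hsum : inner ℝ x (∑ j ∈ I.attach, (s j.1 j.2 - s' j.1 j.2)) > 1 / (128 * (l : ℝ)) := by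
    rw [inner_sum]
    have h1 : ∀ j ∈ I.attach, (if j.1 = i then 1 / (64 * (l : ℝ)) else 0)
        - (if i + (l + 6) ≤ j.1 then 2 * ((4 : ℝ) ^ (i + 1) * (1 / 4) ^ j.1) else 0)
        ≤ inner ℝ x (s j.1 j.2 - s' j.1 j.2) := by
      intro j _
      rcases lt_trichotomy j.1 i with h | h | h
      · rw [if_neg (by omega), if_neg (by omega), hmin j.1 j.2 h, sub_self, sub_self, inner_zero_right]
      · rw [if_pos h, if_neg (by omega), sub_zero]
        have h2 : inner ℝ x (s j.1 j.2 - s' j.1 j.2) = inner ℝ x (s i hiI - s' i hiI) := by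
          obtain ⟨j1, j2⟩ := j
          simp only at h
          subst h
          rfl
        rw [h2]
        exact hx3.le
      · rw [if_neg (by omega), if_pos (hgap j.1 j.2 h)]
        have := hdiff j.1 j.2 h
        linarith
    have h2 := Finset.sum_le_sum h1
    rw [Finset.sum_sub_distrib] at h2
    have h3 : ∑ j ∈ I.attach, (if j.1 = i then 1 / (64 * (l : ℝ)) else 0) = 1 / (64 * (l : ℝ)) := by
      rw [Finset.sum_attach I (fun j => if j = i then 1 / (64 * (l : ℝ)) else 0),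
        Finset.sum_ite_eq' I i, if_pos hiI]
    have h4 : ∑ j ∈ I.attach, (if i + (l + 6) ≤ j.1 then 2 * ((4 : ℝ) ^ (i + 1) * (1 / 4) ^ j.1) else 0)
        < 1 / (128 * (l : ℝ)) := by
      rw [Finset.sum_attach I (fun j => if i + (l + 6) ≤ j then 2 * ((4 : ℝ) ^ (i + 1) * (1 / 4) ^ j) else 0),
        ← Finset.sum_filter]
      have h5 : ∑ j ∈ I.filter (fun j => i + (l + 6) ≤ j), 2 * ((4 : ℝ) ^ (i + 1) * (1 / 4) ^ j)
          ≤ ∑ j ∈ Finset.Ico (i + (l + 6)) J, 2 * ((4 : ℝ) ^ (i + 1) * (1 / 4) ^ j) := by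
        apply Finset.sum_le_sum_of_subset_of_nonneg
        · intro j hj
          rw [Finset.mem_filter, hI, Finset.mem_filter, Finset.mem_range] at hj
          rw [Finset.mem_Ico]
          exact ⟨hj.2, hj.1.1⟩
        · intro j _ _
          positivity
      refine lt_of_le_of_lt h5 ?_
      rw [← Finset.mul_sum, ← Finset.mul_sum]
      have h6 := geom_sum_Ico_le_of_lt_one (m := i + (l + 6)) (n := J)
        (by norm_num : (0 : ℝ) ≤ 1 / 4) (by norm_num : (1 / 4 : ℝ) < 1)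
      have h7 : (4 : ℝ) ^ (i + 1) * ((1 / 4) ^ (i + (l + 6)) / (1 - 1 / 4)) = (1 / 768) * (1 / 4) ^ l := by
        have h8 : (4 : ℝ) ^ i * (1 / 4) ^ i = 1 := by
          rw [← mul_pow]
          norm_num
        rw [pow_add, pow_add (1 / 4 : ℝ) i, pow_add (1 / 4 : ℝ) l]
        calc (4 : ℝ) ^ i * 4 ^ 1 * ((1 / 4) ^ i * ((1 / 4) ^ l * (1 / 4) ^ 6) / (1 - 1 / 4))
            = ((4 : ℝ) ^ i * (1 / 4) ^ i) * ((1 / 4) ^ l * (4 ^ 1 * (1 / 4) ^ 6 / (1 - 1 / 4))) := by
              ring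
          _ = _ := by rw [h8]; norm_num; ring
      have h9 : (1 / 4 : ℝ) ^ l ≤ 1 / l := by
        rw [one_div_pow]
        apply one_div_le_one_div_of_le hl0
        have : l < 4 ^ l := Nat.lt_pow_self (by norm_num)
        exact_mod_cast this.le
      calc 2 * ((4 : ℝ) ^ (i + 1) * ∑ j ∈ Finset.Ico (i + (l + 6)) J, (1 / 4 : ℝ) ^ j)
          ≤ 2 * ((4 : ℝ) ^ (i + 1) * ((1 / 4) ^ (i + (l + 6)) / (1 - 1 / 4))) := by gcongr
        _ = 2 * ((1 / 768) * (1 / 4) ^ l) := by rw [h7]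
        _ ≤ 2 * ((1 / 768) * (1 / l)) := by gcongr
        _ < 1 / (128 * (l : ℝ)) := by
          rw [show (2 : ℝ) * ((1 / 768) * (1 / l)) = (1 / 384) / l by ring,
            show 1 / (128 * (l : ℝ)) = (1 / 128) / l by field_simp]
          apply div_lt_div_of_pos_right _ hl0
          norm_num
    have h10 : 1 / (64 * (l : ℝ)) = 2 * (1 / (128 * (l : ℝ))) := by
      field_simp
      norm_num
    rw [h3] at h2
    linarith
  -- both half sums have the same centre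
  have hcs := hc2 s hs0
  have hcs' := hc2 s' hs0'
  rw [hss] at hcs
  obtain ⟨k1, hk1, hk1'⟩ := hcs
  obtain ⟨k2, hk2, hk2'⟩ := hcs'
  obtain ⟨x', hx', rfl⟩ := hx1
  have h11 : u s - u s' = (1 / (1024 * (l : ℝ))) • (k1 - k2) := by
    rw [smul_sub, ← hk1', ← hk2']
    abel
  have h12 : u s - u s' = (1 / 2 : ℝ) • ∑ j ∈ I.attach, (s j.1 j.2 - s' j.1 j.2) := by
    rw [hu]
    simp only
    rw [← smul_sub, Finset.sum_sub_distrib]
  have h13 : inner ℝ x' (u s - u s') ≤ 1 / (512 * (l : ℝ)) := by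
    rw [h11, inner_smul_right, inner_sub_right]
    have h14 : inner ℝ x' k1 ≤ 1 := hk1 x' hx'
    have h15 : inner ℝ (-x') k2 ≤ 1 := hk2 _ (hK.symm _ hx')
    rw [inner_neg_left] at h15
    calc 1 / (1024 * (l : ℝ)) * (inner ℝ x' k1 - inner ℝ x' k2)
        ≤ 1 / (1024 * (l : ℝ)) * 2 := by
          gcongr
          linarith
      _ = _ := by
          field_simp
          norm_num
  rw [h12, inner_smul_right] at h13
  rw [inner_smul_left] at hsum
  simp only [conj_trivial] at hsum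
  have h16 : 1 / (128 * (l : ℝ)) = 4 * (1 / (512 * (l : ℝ))) := by
    field_simp
    norm_num
  rw [h16] at hsum
  linarith

end Vale.Agent.P126.Dua
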