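import Vale.Agent.P126.Mods

namespace Vale.Agent.P126.FN

open Finset

theorem final_proof : FINAL := by
  classical
  intro X _ R hR N d lam m eta lab hlab hd hlam heta hN hG hcard
  have hc0 : 0 < Fintype.card X := by
    rcases Nat.eq_zero_or_pos (Fintype.card X) with h | h
    · rw [h] at hcard
      norm_num at hcard
    · exact h
  have hc : (0 : ℝ) < Fintype.card X := by exact_mod_cast hc0
  obtain ⟨F, hF, hFz⟩ := hG (fun _ => 1 / (Fintype.card X : ℝ)) (fun _ => by positivity)
    (by
      rw [Finset.sum_const, Finset.card_univ, nsmul_eq_mul]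
      field_simp)
    (fun _ => by
      rw [div_le_iff₀ hc]
      exact hcard)
  -- pigeonhole
  have hN' : (0 : ℝ) < N := by exact_mod_cast hN
  obtain ⟨t, ht⟩ : ∃ t : Fin N, (Fintype.card X : ℝ) / N ≤
      ((Finset.univ.filter fun x => lab (F x) x = t).card : ℝ) := by
    by_contra hcon
    push Not at hcon
    have h1 : (Fintype.card X : ℝ) = ∑ t : Fin N,
        ((Finset.univ.filter fun x => lab (F x) x = t).card : ℝ) := by
      rw [← Nat.cast_sum, ← Finset.card_eq_sum_card_fiberwise (fun x _ => Finset.mem_univ _),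
        Finset.card_univ]
    have h2 : ∑ t : Fin N, ((Finset.univ.filter fun x => lab (F x) x = t).card : ℝ) <
        ∑ _t : Fin N, (Fintype.card X : ℝ) / N := by
      apply Finset.sum_lt_sum_of_nonempty
      · have : NeZero N := ⟨by omega⟩
        exact Finset.univ_nonempty
      · intro i _
        exact hcon i
    rw [← h1, Finset.sum_const, Finset.card_univ, Fintype.card_fin, nsmul_eq_mul] at h2
    have h3 : (N : ℝ) * ((Fintype.card X : ℝ) / N) = Fintype.card X := by field_simp
    linarith
  have hTpos : (0 : ℝ) < ((Finset.univ.filter fun x => lab (F x) x = t).card : ℝ) :=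
    lt_of_lt_of_le (by positivity) ht
  have hT : (Finset.univ.filter fun x => lab (F x) x = t).Nonempty := by
    rw [← Finset.card_pos]
    exact_mod_cast hTpos
  obtain ⟨x0, hx0⟩ := hT
  have hx0' : lab (F x0) x0 = t := by simpa using hx0
  have h4 := hFz x0
  have h5 : ∑ x ∈ Finset.univ.filter (fun x => lab (F x) x = t),
      1 / (Fintype.card X : ℝ) * Real.exp (-(lam * (3 * d))) ≤
      ∑ x, 1 / (Fintype.card X : ℝ) * Real.exp (-(lam * (F x x - F x x0))) := by
    refine le_trans ?_ (Finset.sum_le_sum_of_subset_of_nonneg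
      (Finset.subset_univ (Finset.univ.filter fun x => lab (F x) x = t))
      (fun x _ _ => by positivity))
    refine Finset.sum_le_sum fun x hx => ?_
    have hx' : lab (F x) x = t := by simpa using hx
    have h6 := abs_le.mp (hlab (F x) (hF x) (F x0) (hF x0) x x0 (by rw [hx', hx0']) x0)
    apply mul_le_mul_of_nonneg_left _ (by positivity)
    apply Real.exp_le_exp.mpr
    nlinarith
  rw [Finset.sum_const, nsmul_eq_mul] at h5
  have h7 : Real.exp (-(lam * (3 * d))) / N ≤
      ((Finset.univ.filter fun x => lab (F x) x = t).card : ℝ) *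
        (1 / (Fintype.card X : ℝ) * Real.exp (-(lam * (3 * d)))) := by
    have h8 : (1 : ℝ) / N ≤
        ((Finset.univ.filter fun x => lab (F x) x = t).card : ℝ) / (Fintype.card X : ℝ) := by
      rw [div_le_div_iff₀ hN' hc]
      rw [div_le_iff₀ hN'] at ht
      linarith
    have := mul_le_mul_of_nonneg_right h8 (Real.exp_pos (-(lam * (3 * d)))).le
    calc _ = 1 / (N : ℝ) * Real.exp (-(lam * (3 * d))) := by ring
      _ ≤ _ := this
      _ = _ := by ring
  have h9 : Real.exp (-(lam * (3 * d))) / N ≤ Real.exp (-(lam * m)) := h7.trans (h5.trans h4)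
  rw [div_le_iff₀ hN'] at h9
  have h10 : Real.exp (lam * (m - 3 * d)) ≤ N := by
    have h11 : Real.exp (lam * (m - 3 * d)) =
        Real.exp (lam * m) * Real.exp (-(lam * (3 * d))) := by
      rw [← Real.exp_add]
      congr 1
      ring
    have h12 : Real.exp (lam * m) * Real.exp (-(lam * m)) = 1 := by
      rw [← Real.exp_add]
      simp
    rw [h11]
    have := mul_le_mul_of_nonneg_left h9 (Real.exp_pos (lam * m)).le
    calc _ ≤ _ := this
      _ = (Real.exp (lam * m) * Real.exp (-(lam * m))) * N := by ring
      _ = N := by rw [h12, one_mul]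
  exact (Real.le_log_iff_exp_le hN').mpr h10

end Vale.Agent.P126.FN
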