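import Vale.Agent.P126.Mods

/-!
B8 (helper13). First inequality, from TELE, MAXSEP, NET, LEVEL, DUAL, COVER, POLAR.
-/

namespace Vale.Agent.P126.HF

open Set

/-- Sum of p-th powers is at most the p-th power of the sum. -/
lemma sum_rpow_le {ι : Type} (s : Finset ι) (a : ι → ℝ) (ha : ∀ i ∈ s, 0 ≤ a i) {p : ℝ}
    (hp : 1 ≤ p) : ∑ i ∈ s, a i ^ p ≤ (∑ i ∈ s, a i) ^ p := by
  classical
  induction s using Finset.induction_on with
  | empty =>
    simp only [Finset.sum_empty]
    exact Real.rpow_nonneg le_rfl p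
  | insert i s hi ih =>
    rw [Finset.sum_insert hi, Finset.sum_insert hi]
    have h1 : 0 ≤ a i := ha i (Finset.mem_insert_self i s)
    have h2 : 0 ≤ ∑ j ∈ s, a j :=
      Finset.sum_nonneg fun j hj => ha j (Finset.mem_insert_of_mem hj)
    have h3 := ih (fun j hj => ha j (Finset.mem_insert_of_mem hj))
    have h4 := Real.add_rpow_le_rpow_add h1 h2 hp
    linarith

theorem half_proof (hTELE : TELE) (hMAXSEP : MAXSEP) (hNET : NET) (hLEVEL : LEVEL)
    (hDUAL : DUAL) (hCOVER : COVER) (hPOLAR : POLAR) : HALF := by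
  classical
  obtain ⟨C, hC, hL⟩ := hLEVEL
  refine ⟨49 * C, by linarith, ?_⟩
  intro n K L hK hL' l hl
  have hl0 : (0 : ℝ) < l := by exact_mod_cast hl
  have hl1 : (1 : ℝ) ≤ l := by exact_mod_cast hl
  obtain ⟨X, hXne, hXK, hXsep, hXcov⟩ := hMAXSEP n K L hK hL'
  obtain ⟨J, Y, hY, hcard⟩ := hTELE n K L hK hL' X hXK hXsep
  have hd : (0 : ℝ) < 1 / (64 * (l : ℝ)) := by positivity
  choose S hSne hSmem hSsep hScov using hNET n K L hK hL' (1 / (64 * (l : ℝ))) hd
  -- the covering of the polar body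
  have hpL := (hPOLAR n L hL').1
  have hpK := (hPOLAR n K hK).1
  have ht : (0 : ℝ) < 1 / (1024 * (l : ℝ)) := by positivity
  have hdK : IsBody (dil (1 / (1024 * (l : ℝ))) (polar K)) :=
    ((hPOLAR n (polar K) hpK).2.2.2 _ ht).1
  obtain ⟨⟨T, hTcard, hTcov⟩, -⟩ := hCOVER n (polar L) _ hpL hdK
  set N : ℕ := coverNum (polar L) (dil (1 / (1024 * (l : ℝ))) (polar K)) with hN
  -- the exponent
  set p : ℝ := 1 + 1 / (l : ℝ) with hp
  have hp1 : 1 ≤ p := by
    have : 0 ≤ 1 / (l : ℝ) := by positivity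
    linarith
  have hp2 : p ≤ 2 := by
    have : 1 / (l : ℝ) ≤ 1 := by
      rw [div_le_one hl0]; exact hl1
    linarith
  -- positivity of cards
  have hSpos : ∀ j, 0 ≤ Real.log (S j).card := fun j => by
    apply Real.log_nonneg
    exact_mod_cast (hSne j).card_pos
  have hlogN : 0 ≤ Real.log N := by
    rcases Nat.eq_zero_or_pos N with h | h
    · rw [h]; simp
    · exact Real.log_nonneg (by exact_mod_cast h)
  -- per class bound
  have hclass : ∀ rho, ∑ j ∈ (Finset.range J).filter (fun j => j % (l + 6) = rho),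
      Real.log (S j).card ≤ Real.log N := by
    intro rho
    have h1 := hDUAL n K L hK hL' l J rho hl S hSmem hSsep T hTcov
    rw [hTcard] at h1
    have h2 : (∏ j ∈ (Finset.range J).filter (fun j => j % (l + 6) = rho),
        ((S j).card : ℝ)) ≤ (N : ℝ) := by exact_mod_cast h1
    have h3 : (0 : ℝ) < ∏ j ∈ (Finset.range J).filter (fun j => j % (l + 6) = rho),
        ((S j).card : ℝ) := Finset.prod_pos fun j _ => by exact_mod_cast (hSne j).card_pos
    have h4 := Real.log_le_log h3 h2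
    rwa [Real.log_prod (fun j _ => by
      have : (0 : ℝ) < ((S j).card : ℝ) := by exact_mod_cast (hSne j).card_pos
      exact this.ne')] at h4
  have hsumS : ∑ j ∈ Finset.range J, Real.log (S j).card ≤ (l + 6 : ℝ) * Real.log N := by
    have h1 : ∑ j ∈ Finset.range J, Real.log (S j).card =
        ∑ rho ∈ Finset.range (l + 6),
          ∑ j ∈ (Finset.range J).filter (fun j => j % (l + 6) = rho),
            Real.log (S j).card := by
      rw [Finset.sum_fiberwise_of_maps_to]
      intro j _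
      exact Finset.mem_range.mpr (Nat.mod_lt _ (by omega))
    rw [h1]
    refine (Finset.sum_le_sum fun rho _ => hclass rho).trans ?_
    rw [Finset.sum_const, Finset.card_range, nsmul_eq_mul]
    push_cast
    exact le_rfl
  have hsumS0 : 0 ≤ ∑ j ∈ Finset.range J, Real.log (S j).card :=
    Finset.sum_nonneg fun j _ => hSpos j
  -- level bounds
  have hlev : ∀ j ∈ Finset.range J, Real.log (Y j).card ≤
      C * (l : ℝ) ^ 3 * Real.log (S j).card ^ p := by
    intro j hj
    have hj' := Finset.mem_range.mp hj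
    exact hL n K L hK hL' l j hl (Y j) (S j) (hY j hj').1 (hY j hj').2 (hSmem j) (hScov j)
  -- bound on log X
  have hXpos : (0 : ℝ) < X.card := by exact_mod_cast hXne.card_pos
  have hprodpos : 0 < ∏ j ∈ Finset.range J, (Y j).card := lt_of_lt_of_le hXne.card_pos hcard
  have hYpos : ∀ j ∈ Finset.range J, ((Y j).card : ℝ) ≠ 0 := by
    intro j hj h0
    have h0' : (Y j).card = 0 := by exact_mod_cast h0
    have h3 : ∏ j ∈ Finset.range J, (Y j).card = 0 :=
      Finset.prod_eq_zero (f := fun j => (Y j).card) hj h0'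
    omega
  have hlogX : Real.log X.card ≤ ∑ j ∈ Finset.range J, Real.log (Y j).card := by
    have h1 : (X.card : ℝ) ≤ ∏ j ∈ Finset.range J, ((Y j).card : ℝ) := by exact_mod_cast hcard
    have h2 := Real.log_le_log hXpos h1
    rwa [Real.log_prod hYpos] at h2
  have hC0 : 0 ≤ C * (l : ℝ) ^ 3 := by positivity
  have hmain : Real.log X.card ≤ C * (l : ℝ) ^ 3 * ((l + 6 : ℝ) * Real.log N) ^ p := by
    calc Real.log X.card ≤ ∑ j ∈ Finset.range J, Real.log (Y j).card := hlogX
      _ ≤ ∑ j ∈ Finset.range J, C * (l : ℝ) ^ 3 * Real.log (S j).card ^ p :=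
          Finset.sum_le_sum hlev
      _ = C * (l : ℝ) ^ 3 * ∑ j ∈ Finset.range J, Real.log (S j).card ^ p := by
          rw [Finset.mul_sum]
      _ ≤ C * (l : ℝ) ^ 3 * (∑ j ∈ Finset.range J, Real.log (S j).card) ^ p :=
          mul_le_mul_of_nonneg_left (sum_rpow_le _ _ (fun j _ => hSpos j) hp1) hC0
      _ ≤ C * (l : ℝ) ^ 3 * ((l + 6 : ℝ) * Real.log N) ^ p :=
          mul_le_mul_of_nonneg_left
            (Real.rpow_le_rpow hsumS0 hsumS (by linarith)) hC0
  -- numerics
  have hl6 : ((l + 6 : ℝ) * Real.log N) ^ p ≤ 49 * (l : ℝ) ^ 2 * Real.log N ^ p := by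
    rw [Real.mul_rpow (by positivity) hlogN]
    apply mul_le_mul_of_nonneg_right _ (Real.rpow_nonneg hlogN _)
    have h1 : (l + 6 : ℝ) ≤ 7 * l := by linarith
    have h2 : (1 : ℝ) ≤ l + 6 := by linarith
    calc (l + 6 : ℝ) ^ p ≤ (l + 6 : ℝ) ^ (2 : ℝ) := Real.rpow_le_rpow_of_exponent_le h2 hp2
      _ = (l + 6 : ℝ) ^ 2 := by norm_cast
      _ ≤ (7 * l : ℝ) ^ 2 := by gcongr
      _ = 49 * (l : ℝ) ^ 2 := by ring
  -- the covering number is at most the card of X
  have hcov : coverNum K L ≤ X.card := by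
    unfold coverNum
    exact Nat.sInf_le ⟨X, rfl, hXcov⟩
  have hlogcov : Real.log (coverNum K L) ≤ Real.log X.card := by
    rcases Nat.eq_zero_or_pos (coverNum K L) with h | h
    · rw [h]
      simp only [Nat.cast_zero, Real.log_zero]
      exact Real.log_nonneg (by exact_mod_cast hXne.card_pos)
    · exact Real.log_le_log (by exact_mod_cast h) (by exact_mod_cast hcov)
  calc Real.log (coverNum K L) ≤ Real.log X.card := hlogcov
    _ ≤ C * (l : ℝ) ^ 3 * ((l + 6 : ℝ) * Real.log N) ^ p := hmain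
    _ ≤ C * (l : ℝ) ^ 3 * (49 * (l : ℝ) ^ 2 * Real.log N ^ p) :=
        mul_le_mul_of_nonneg_left hl6 hC0
    _ = 49 * C * (l : ℝ) ^ 5 * Real.log N ^ p := by ring

end Vale.Agent.P126.HF
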