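import Vale.Agent.P126.Mods

namespace Vale.Agent.P126.IT

open Finset

lemma iter_good (hB : BASE) (hC : COMPOSE) {X : Type} [Fintype X] (R : Set (X → ℝ))
    (hR : RSet R) (l N Q : ℕ) (lab : (X → ℝ) → X → Fin N) (hl : 1 ≤ l) (hN : 512 * l ≤ N)
    (hlab : Lab R N (1 / (64 * l)) lab) (hQ : 2 ≤ Q) (j : ℕ) :
    ∃ eta : ℝ, 0 < eta ∧
      Good R ((Q : ℝ) ^ j * (1 / 512)) (1 / 8 - 4 * (1 / (64 * (l : ℝ))) * j) eta ∧
      -Real.log eta ≤ Real.log 2 + 17 * ((Q : ℝ) ^ j * (1 / 512)) +
        j * (Q * Real.log N + Real.log (32768 * l)) := by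
  have hl' : (1 : ℝ) ≤ l := by exact_mod_cast hl
  have hQ' : (2 : ℝ) ≤ Q := by exact_mod_cast hQ
  have hN1 : 1 ≤ N := by omega
  have hN' : (1 : ℝ) ≤ N := by exact_mod_cast hN1
  induction j with
  | zero =>
    refine ⟨1 / 2, by norm_num, ?_, ?_⟩
    · simpa using hB X R hR
    · rw [show (1 / 2 : ℝ) = 2⁻¹ by norm_num, Real.log_inv]
      simp
  | succ j ih =>
    obtain ⟨eta, heta, hG, hlog⟩ := ih
    set d : ℝ := 1 / (64 * (l : ℝ)) with hd
    have hdpos : 0 < d := by positivity
    set lam : ℝ := (Q : ℝ) ^ j * (1 / 512) with hlam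
    have hlampos : 0 < lam := by positivity
    have hlam0 : 1 / 512 ≤ lam := by
      have : (1 : ℝ) ≤ (Q : ℝ) ^ j := one_le_pow₀ (by linarith)
      rw [hlam]
      linarith
    have hG' := hC X R hR N Q d lam (1 / 8 - 4 * d * j) eta lab hlab hdpos hlampos heta
      (by omega) hN1 hG
    refine ⟨eta * Real.exp (-(Q * lam * (1 / 8 - 4 * d * j))) * (Q * lam * d) /
      ((N : ℝ) * Real.exp (8 * lam)) ^ Q, ?_, ?_, ?_⟩
    · positivity
    · have e1 : (Q : ℝ) ^ (j + 1) * (1 / 512) = Q * lam := by rw [hlam, pow_succ]; ring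
      have e2 : 1 / 8 - 4 * d * ((j + 1 : ℕ) : ℝ) = 1 / 8 - 4 * d * j - 4 * d := by
        push_cast; ring
      rw [e1, e2]
      exact hG'
    · have e1 : (Q : ℝ) ^ (j + 1) * (1 / 512) = Q * lam := by rw [hlam, pow_succ]; ring
      rw [e1]
      have hq : 0 < Q * lam * d := by positivity
      have hW : 0 < (N : ℝ) * Real.exp (8 * lam) := by positivity
      rw [Real.log_div (by positivity) (by positivity), Real.log_mul (by positivity) hq.ne',
        Real.log_mul (by positivity) (by positivity), Real.log_exp, Real.log_pow,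
        Real.log_mul (by positivity) (Real.exp_pos _).ne', Real.log_exp]
      have h3 : -Real.log (Q * lam * d) ≤ Real.log (32768 * l) := by
        rw [← Real.log_inv]
        apply Real.log_le_log (by positivity)
        rw [inv_le_comm₀ hq (by positivity)]
        have h4 : (32768 * (l : ℝ))⁻¹ = 1 / 512 * d := by
          rw [hd]
          field_simp
          norm_num
        rw [h4]
        apply mul_le_mul_of_nonneg_right _ hdpos.le
        nlinarith
      have h5 : (Q : ℝ) * lam * (1 / 8 - 4 * d * j) ≤ Q * lam * (1 / 8) := by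
        apply mul_le_mul_of_nonneg_left _ (by positivity)
        have : 0 ≤ 4 * d * j := by positivity
        linarith
      have h6 : 17 * lam + Q * lam * (1 / 8) + Q * (8 * lam) ≤ 17 * (Q * lam) := by
        nlinarith
      push_cast
      nlinarith

theorem iter_proof (hB : BASE) (hC : COMPOSE) (hF : FINAL) : ITER := by
  refine ⟨1091 * 65536, by norm_num, ?_⟩
  intro X _ R hR l N lab hl hN hlab
  have hl' : (1 : ℝ) ≤ l := by exact_mod_cast hl
  have hN1 : 1 ≤ N := by omega
  have hNl : (512 : ℝ) * l ≤ N := by exact_mod_cast hN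
  have hN' : (0 : ℝ) < N := by linarith
  set L := Real.log N with hL
  have hL6 : 1 ≤ L := by
    rw [hL, Real.le_log_iff_exp_le hN']
    have := Real.exp_one_lt_d9
    linarith
  have h64 : Real.log 64 ≤ L := by
    apply Real.log_le_log (by norm_num)
    linarith
  have h2L : Real.log 2 ≤ L := by
    apply Real.log_le_log (by norm_num)
    linarith
  -- the number a
  set a : ℝ := (32768 * L) ^ (1 / (l : ℝ)) with ha
  have ha1 : 1 ≤ a := Real.one_le_rpow (by linarith) (by positivity)
  have hal : a ^ l = 32768 * L := by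
    rw [ha, ← Real.rpow_natCast, ← Real.rpow_mul (by linarith)]
    rw [one_div, inv_mul_cancel₀ (by positivity), Real.rpow_one]
  set Q : ℕ := ⌊a⌋₊ + 1 with hQ
  have hQ2 : 2 ≤ Q := by
    have : 1 ≤ ⌊a⌋₊ := Nat.le_floor (by simpa using ha1)
    omega
  have hQa : (Q : ℝ) ≤ 2 * a := by
    have : (⌊a⌋₊ : ℝ) ≤ a := Nat.floor_le (by linarith)
    rw [hQ]
    push_cast
    linarith
  have haQ : a < Q := by
    rw [hQ]
    push_cast
    exact Nat.lt_floor_add_one a
  have hex : ∃ j : ℕ, 64 * L < (Q : ℝ) ^ j * (1 / 512) := by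
    refine ⟨l, ?_⟩
    have : a ^ l < (Q : ℝ) ^ l := pow_lt_pow_left₀ haQ (by linarith) (by omega)
    rw [hal] at this
    linarith
  have hfl : Nat.find hex ≤ l := by
    apply Nat.find_min'
    have : a ^ l < (Q : ℝ) ^ l := pow_lt_pow_left₀ haQ (by linarith) (by omega)
    rw [hal] at this
    linarith
  obtain ⟨j, hj⟩ : ∃ j, Nat.find hex = j + 1 := by
    rcases Nat.eq_zero_or_eq_succ_pred (Nat.find hex) with h | h
    · exfalso
      have := Nat.find_spec hex
      rw [h] at this
      norm_num at this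
      linarith
    · exact ⟨_, h⟩
  have hspec := Nat.find_spec hex
  have hmin := Nat.find_min hex (m := j) (by omega)
  rw [hj] at hspec hfl
  push Not at hmin
  obtain ⟨eta, heta, hG, hlog⟩ := iter_good hB hC R hR l N Q lab hl hN hlab hQ2 (j + 1)
  have hlamQ : (Q : ℝ) ^ (j + 1) * (1 / 512) ≤ 64 * L * Q := by
    rw [pow_succ]
    have : (0 : ℝ) ≤ Q := by positivity
    nlinarith
  -- the contradiction
  have hcard : eta * Fintype.card X < 1 := by
    by_contra hcon
    push Not at hcon
    have h3 := hF X R hR N _ _ _ eta lab hlab (by positivity) (by positivity) heta hN1 hG hcon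
    have h4 : (1 : ℝ) / 64 ≤
        1 / 8 - 4 * (1 / (64 * (l : ℝ))) * ((j + 1 : ℕ) : ℝ) - 3 * (1 / (64 * (l : ℝ))) := by
      have hjl : ((j + 1 : ℕ) : ℝ) ≤ l := by exact_mod_cast hfl
      have h5 : 4 * (1 / (64 * (l : ℝ))) * ((j + 1 : ℕ) : ℝ) ≤ 4 / 64 := by
        have : 4 * (1 / (64 * (l : ℝ))) * ((j + 1 : ℕ) : ℝ) ≤ 4 * (1 / (64 * (l : ℝ))) * l :=
          mul_le_mul_of_nonneg_left hjl (by positivity)
        have h6 : 4 * (1 / (64 * (l : ℝ))) * l = 4 / 64 := by field_simp
        linarith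
      have h7 : 3 * (1 / (64 * (l : ℝ))) ≤ 3 / 64 := by
        have : 1 / (64 * (l : ℝ)) ≤ 1 / 64 := by
          apply one_div_le_one_div_of_le (by norm_num)
          linarith
        linarith
      linarith
    have h8 := mul_le_mul_of_nonneg_left h4
      (by positivity : (0 : ℝ) ≤ (Q : ℝ) ^ (j + 1) * (1 / 512))
    linarith
  rcases Nat.eq_zero_or_pos (Fintype.card X) with h0 | h0
  · rw [h0]
    simp only [Nat.cast_zero, Real.log_zero]
    positivity
  have hmain : Real.log (Fintype.card X) ≤ -Real.log eta := by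
    have hc : (0 : ℝ) < Fintype.card X := by exact_mod_cast h0
    rw [← Real.log_inv]
    apply Real.log_le_log hc
    rw [← one_div, le_div_iff₀ heta]
    linarith
  have h9 : Real.log (32768 * l) ≤ 2 * L := by
    have h10 : Real.log (32768 * (l : ℝ)) = Real.log 64 + Real.log (512 * l) := by
      rw [← Real.log_mul (by norm_num) (by positivity)]
      congr 1
      ring
    have h11 : Real.log (512 * (l : ℝ)) ≤ L := Real.log_le_log (by positivity) hNl
    linarith
  have hjl : ((j + 1 : ℕ) : ℝ) ≤ l := by exact_mod_cast hfl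
  have hQ2' : (2 : ℝ) ≤ Q := by exact_mod_cast hQ2
  have hQL : 0 ≤ (Q : ℝ) * L := by positivity
  have h12 : ((j + 1 : ℕ) : ℝ) * (Q * L + Real.log (32768 * l)) ≤ l * (2 * (Q * L)) := by
    have h13 : Q * L + Real.log (32768 * l) ≤ 2 * (Q * L) := by nlinarith
    calc _ ≤ ((j + 1 : ℕ) : ℝ) * (2 * (Q * L)) := mul_le_mul_of_nonneg_left h13 (by positivity)
      _ ≤ l * (2 * (Q * L)) := mul_le_mul_of_nonneg_right hjl (by positivity)
  have h14 : Real.log (Fintype.card X) ≤ 1091 * l * (Q * L) := by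
    have h15 : L ≤ Q * L := by nlinarith
    have h16 : Q * L ≤ l * (Q * L) := by nlinarith
    nlinarith
  -- bound for a
  have h17 : a ≤ 32768 * L ^ (1 / (l : ℝ)) := by
    rw [ha, Real.mul_rpow (by norm_num) (by linarith)]
    apply mul_le_mul_of_nonneg_right _ (by positivity)
    calc (32768 : ℝ) ^ (1 / (l : ℝ)) ≤ 32768 ^ (1 : ℝ) := by
          apply Real.rpow_le_rpow_of_exponent_le (by norm_num)
          rw [div_le_one (by positivity)]
          exact hl'
      _ = 32768 := Real.rpow_one _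
  have h18 : (Q : ℝ) ≤ 65536 * L ^ (1 / (l : ℝ)) := by linarith
  have h19 : L ^ (1 + 1 / (l : ℝ)) = L * L ^ (1 / (l : ℝ)) := by
    rw [Real.rpow_add (by linarith), Real.rpow_one]
  rw [h19]
  calc Real.log (Fintype.card X) ≤ 1091 * l * (Q * L) := h14
    _ ≤ 1091 * l * ((65536 * L ^ (1 / (l : ℝ))) * L) := by
        apply mul_le_mul_of_nonneg_left _ (by positivity)
        exact mul_le_mul_of_nonneg_right h18 (by linarith)
    _ = _ := by ring

end Vale.Agent.P126.IT
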