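import Vale.Agent.P126.Mods

/-!
B6 (helper13). One scale, from ABSTR and POLAR.
-/

namespace Vale.Agent.P126.LV

open Set

/-- The linear map sending y to the function x -> inner x y on a finite set of points. -/
noncomputable def ev {n : ℕ} (Y : Finset (E n)) : E n →ₗ[ℝ] ({x // x ∈ Y} → ℝ) where
  toFun y := fun x => inner ℝ (x : E n) y
  map_add' := fun a b => by
    funext x
    simp [inner_add_right]
  map_smul' := fun t a => by
    funext x
    simp [inner_smul_right]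

lemma ev_apply {n : ℕ} (Y : Finset (E n)) (y : E n) (x : {x // x ∈ Y}) :
    ev Y y x = inner ℝ (x : E n) y := rfl

theorem level_proof (hABSTR : ABSTR) (hPOLAR : POLAR) : LEVEL := by
  classical
  obtain ⟨C, hC, hA⟩ := hABSTR
  refine ⟨C, hC, ?_⟩
  intro n K L hK hL l j hl Y S hY hYsep hS hScov
  have h4 : (0 : ℝ) < (4 : ℝ) ^ j := by positivity
  obtain ⟨hpL, hppL, -, hdil⟩ := hPOLAR n L hL
  -- the scaled polar body
  set P : Set (E n) := dil ((4 : ℝ) ^ j)⁻¹ (polar L) with hP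
  have hPb : IsBody P := ((hPOLAR n (polar L) hpL).2.2.2 _ (inv_pos.mpr h4)).1
  have hPpol : polar (dil ((4 : ℝ) ^ j) L) = P := (hdil _ h4).2
  have hdL : IsBody (dil ((4 : ℝ) ^ j) L) := (hdil _ h4).1
  -- 0 is in P
  have hzero : (0 : E n) ∈ P := by
    rw [← hPpol]
    intro x _
    simp
  -- bound
  have hbd : ∀ x ∈ Y, ∀ y ∈ P, inner ℝ x y ≤ 4 := by
    intro x hx y hy
    obtain ⟨x0, hx0, rfl⟩ := (hY x hx).2
    obtain ⟨y0, hy0, rfl⟩ := hy
    have h1 : inner ℝ x0 y0 ≤ 1 := hy0 x0 hx0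
    rw [inner_smul_left, inner_smul_right]
    simp only [map_pow, conj_trivial]
    have h2 : (4 : ℝ) ^ (j + 1) * (((4 : ℝ) ^ j)⁻¹ * inner ℝ x0 y0) = 4 * inner ℝ x0 y0 := by
      field_simp
      ring
    rw [h2]
    linarith
  -- the set R
  let R : Set ({x // x ∈ Y} → ℝ) := ev Y '' P
  have hR : RSet R := by
    refine ⟨?_, ?_, ?_, ?_, ?_, ?_⟩
    · exact hPb.convex.linear_image (ev Y)
    · exact hPb.compact.image (LinearMap.continuous_of_finiteDimensional (ev Y))
    · exact ⟨0, hzero, map_zero _⟩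
    · rintro f ⟨y, hy, rfl⟩
      exact ⟨-y, hPb.symm y hy, map_neg _ _⟩
    · rintro f ⟨y, hy, rfl⟩ x
      rw [ev_apply, abs_le]
      constructor
      · have := hbd x x.2 (-y) (hPb.symm y hy)
        rw [inner_neg_right] at this
        linarith
      · exact hbd x x.2 y hy
    · intro x x' hxx'
      have h1 : (x : E n) - x' ∉ dil ((4 : ℝ) ^ j) L :=
        hYsep x x.2 x' x'.2 (fun h => hxx' (Subtype.ext h))
      obtain ⟨y, hy, hlt⟩ := (hPOLAR n _ hdL).2.2.1 _ h1
      rw [hPpol] at hy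
      refine ⟨ev Y y, ⟨y, hy, rfl⟩, ?_⟩
      rw [ev_apply, ev_apply, ← inner_sub_left]
      exact hlt.le
  -- S is nonempty
  obtain ⟨s0, hs0, -⟩ := hScov 0 hzero
  -- choice of the net point
  have hch : ∀ f : {x // x ∈ Y} → ℝ, ∃ s : {s // s ∈ S}, f ∈ R →
      ∀ x : {x // x ∈ Y}, |f x - inner ℝ (x : E n) (s : E n)| ≤ 1 / (64 * (l : ℝ)) := by
    intro f
    by_cases hf : f ∈ R
    · obtain ⟨y, hy, rfl⟩ := hf
      obtain ⟨s, hs, hsx⟩ := hScov y hy
      refine ⟨⟨s, hs⟩, fun _ x => ?_⟩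
      have h1 := hsx x (hY x x.2).1 (hY x x.2).2
      rw [inner_sub_right] at h1
      exact h1
    · exact ⟨⟨s0, hs0⟩, fun h => absurd h hf⟩
  choose c hc using hch
  have hcard : Fintype.card {x // x ∈ Y} = Y.card := Fintype.card_coe Y
  have := hA {x // x ∈ Y} R hR l S.card (fun f => S.equivFin (c f)) hl (by
    intro f hf g hg hfg x
    have h1 := S.equivFin.injective hfg
    have h2 := hc f hf x
    have h3 := hc g hg x
    rw [h1] at h2
    rw [abs_le] at h2 h3 ⊢
    constructor <;> linarith [h2.1, h2.2, h3.1, h3.2])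
  rw [hcard] at this
  exact this

end Vale.Agent.P126.LV
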