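import Vale.Agent.P126.Mods

namespace Vale.Agent.P126.MM

open Finset

theorem minimax_proof : MINIMAX := by
  classical
  intro X _ R hR nu h0 h1 h2
  by_contra hcon
  push Not at hcon
  -- the set of payoff vectors
  let Phi : (X → X → ℝ) →L[ℝ] (X → ℝ) :=
    ContinuousLinearMap.pi fun z => ∑ x, nu x •
      ((ContinuousLinearMap.proj (R := ℝ) (φ := fun _ : X => ℝ) x).comp
          (ContinuousLinearMap.proj (R := ℝ) (φ := fun _ : X => X → ℝ) x) -
        (ContinuousLinearMap.proj (R := ℝ) (φ := fun _ : X => ℝ) z).comp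
          (ContinuousLinearMap.proj (R := ℝ) (φ := fun _ : X => X → ℝ) x))
  have hPhi : ∀ F z, Phi F z = ∑ x, nu x * (F x x - F x z) := by
    intro F z
    simp [Phi, ContinuousLinearMap.pi_apply, ContinuousLinearMap.sum_apply]
  let G : Set (X → ℝ) := Phi '' (Set.pi Set.univ fun _ => R)
  let T : Set (X → ℝ) := {v | ∀ z, 1 / 4 ≤ v z}
  have hGc : Convex ℝ G := by
    apply Convex.linear_image _ Phi.toLinearMap
    exact convex_pi fun _ _ => hR.convex
  have hGk : IsCompact G :=
    (isCompact_univ_pi fun _ => hR.compact).image Phi.continuous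
  have hTc : Convex ℝ T := by
    intro v hv w hw a b ha hb hab z
    have := hv z
    have := hw z
    simp only [Pi.add_apply, Pi.smul_apply, smul_eq_mul]
    nlinarith
  have hTcl : IsClosed T := by
    have : T = ⋂ z, {v : X → ℝ | 1 / 4 ≤ v z} := by
      ext v
      simp [T]
    rw [this]
    exact isClosed_iInter fun z => isClosed_le continuous_const (continuous_apply z)
  have hdisj : Disjoint G T := by
    rw [Set.disjoint_left]
    rintro v ⟨F, hF, rfl⟩ hT
    have hF' : ∀ x, F x ∈ R := fun x => hF x (Set.mem_univ x)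
    obtain ⟨z, hz⟩ := hcon F hF'
    have := hT z
    rw [hPhi] at this
    linarith
  obtain ⟨f, u, v, hfu, huv, hvf⟩ :=
    geometric_hahn_banach_compact_closed hGc hGk hTc hTcl hdisj
  let p : X → ℝ := fun z => f (Pi.single z 1)
  have hf : ∀ w : X → ℝ, f w = ∑ z, p z * w z := by
    intro w
    have h3 : w = ∑ z, w z • (Pi.single z (1 : ℝ) : X → ℝ) := by
      ext y
      simp [Finset.sum_apply, Pi.single_apply]
    conv_lhs => rw [h3]
    rw [map_sum]
    refine Finset.sum_congr rfl fun z _ => ?_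
    rw [map_smul, smul_eq_mul, mul_comm]
  have hp0 : ∀ z, 0 ≤ p z := by
    intro z
    by_contra hneg
    push Not at hneg
    -- the point const 1/4 + s e_z lies in T for all s >= 0
    have h4 : ∀ s : ℝ, 0 ≤ s → v < (∑ y, p y * (1 / 4)) + s * p z := by
      intro s hs
      have h5 : (fun y => 1 / 4 + s * (Pi.single z (1 : ℝ) : X → ℝ) y) ∈ T := by
        intro y
        have : 0 ≤ (Pi.single z (1 : ℝ) : X → ℝ) y := by
          by_cases hy : y = z
          · subst hy; simp
          · simp [hy]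
        have := mul_nonneg hs this
        linarith
      have h6 := hvf _ h5
      rw [hf] at h6
      have h7 : ∑ y, p y * (1 / 4 + s * (Pi.single z (1 : ℝ) : X → ℝ) y) =
          (∑ y, p y * (1 / 4)) + s * p z := by
        simp_rw [mul_add]
        rw [Finset.sum_add_distrib]
        congr 1
        simp [Pi.single_apply]
        ring
      rwa [h7] at h6
    have h8 := h4 (max 0 (((∑ y, p y * (1 / 4)) - v) / (-p z))) (le_max_left _ _)
    have h9 : ((∑ y, p y * (1 / 4)) - v) / (-p z) ≤
        max 0 (((∑ y, p y * (1 / 4)) - v) / (-p z)) := le_max_right _ _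
    rw [div_le_iff₀ (by linarith)] at h9
    linarith
  -- total mass
  set P := ∑ z, p z with hP
  have hzero : f 0 < u := by
    apply hfu
    refine ⟨0, fun x _ => hR.zero, ?_⟩
    simp
  rw [map_zero] at hzero
  have hquarter : v < P / 4 := by
    have h5 : (fun _ => 1 / 4 : X → ℝ) ∈ T := fun _ => le_rfl
    have h6 := hvf _ h5
    rw [hf, ← Finset.sum_mul] at h6
    linarith
  have hPpos : 0 < P := by linarith
  have hall : ∀ F : X → X → ℝ, (∀ x, F x ∈ R) →
      ∑ x, nu x * (∑ z, p z * (F x x - F x z)) < P / 4 := by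
    intro F hF
    have h6 := hfu (Phi F) ⟨F, fun x _ => hF x, rfl⟩
    rw [hf] at h6
    have h7 : ∑ z, p z * Phi F z = ∑ x, nu x * (∑ z, p z * (F x x - F x z)) := by
      simp_rw [hPhi, Finset.mul_sum]
      rw [Finset.sum_comm]
      refine Finset.sum_congr rfl fun x _ => Finset.sum_congr rfl fun z _ => ?_
      ring
    linarith
  -- bad points
  have hbad : ∀ x x', (∀ f ∈ R, ∑ z, p z * (f x - f z) < P / 2) →
      (∀ f ∈ R, ∑ z, p z * (f x' - f z) < P / 2) → x = x' := by
    intro x x' hx hx'
    by_contra hne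
    obtain ⟨g, hg, hg1⟩ := hR.sep x x' hne
    have h10 := hx g hg
    have h11 := hx' (-g) (hR.symm g hg)
    have h12 : ∑ z, p z * (g x - g z) + ∑ z, p z * ((-g) x' - (-g) z) = P * (g x - g x') := by
      rw [← Finset.sum_add_distrib, hP, Finset.sum_mul]
      refine Finset.sum_congr rfl fun z _ => ?_
      simp only [Pi.neg_apply]
      ring
    nlinarith
  have hchoice : ∀ x, ∃ g ∈ R, (0 ≤ ∑ z, p z * (g x - g z)) ∧
      ((∃ f ∈ R, P / 2 ≤ ∑ z, p z * (f x - f z)) → P / 2 ≤ ∑ z, p z * (g x - g z)) := by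
    intro x
    by_cases hx : ∃ f ∈ R, P / 2 ≤ ∑ z, p z * (f x - f z)
    · obtain ⟨g, hg, hg'⟩ := hx
      exact ⟨g, hg, by linarith, fun _ => hg'⟩
    · exact ⟨0, hR.zero, by simp, fun h => absurd h hx⟩
  choose F hF hF0 hF1 using hchoice
  have hlt := hall F hF
  by_cases hex : ∃ x0, ∀ f ∈ R, ∑ z, p z * (f x0 - f z) < P / 2
  · obtain ⟨x0, hx0⟩ := hex
    have h13 : ∀ x, x ≠ x0 → P / 2 ≤ ∑ z, p z * (F x x - F x z) := by
      intro x hx
      apply hF1
      by_contra hno
      push Not at hno
      exact hx (hbad x x0 hno hx0)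
    have h14 : ∑ x, nu x * (∑ z, p z * (F x x - F x z)) ≥
        ∑ x, (nu x * (P / 2) - if x = x0 then nu x * (P / 2) else 0) := by
      refine Finset.sum_le_sum fun x _ => ?_
      split_ifs with hx
      · rw [sub_self]
        exact mul_nonneg (h0 x) (hF0 x)
      · rw [sub_zero]
        exact mul_le_mul_of_nonneg_left (h13 x hx) (h0 x)
    rw [Finset.sum_sub_distrib, ← Finset.sum_mul, h1] at h14
    simp only [Finset.sum_ite_eq', Finset.mem_univ, if_true] at h14
    have := h2 x0
    nlinarith
  · push Not at hex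
    have h14 : ∑ x, nu x * (∑ z, p z * (F x x - F x z)) ≥ ∑ x, nu x * (P / 2) := by
      refine Finset.sum_le_sum fun x _ => ?_
      exact mul_le_mul_of_nonneg_left (hF1 x (hex x)) (h0 x)
    rw [← Finset.sum_mul, h1] at h14
    linarith

end Vale.Agent.P126.MM
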