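import Vale.Agent.P126.Defs

/-!
Interface for P126 (helper25).  Each `def X : Prop` is a module; prove `theorem x_proof (deps) : X`
in its own file, in the namespace `Vale.Agent.P126.XX` (own sub-namespace to avoid clashes).
-/

namespace Vale.Agent.P126

open Set

/-! ### Part A: abstract finite setting.  X finite, R a convex set of functions on X. -/

/-- Good R lam m eta: against every probability nu with atoms at most eta there are functions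
F_x in R with: for all z, sum_x nu_x exp(-lam (F_x(x) - F_x(z))) <= exp(-lam m). -/
def Good {X : Type} [Fintype X] (R : Set (X → ℝ)) (lam m eta : ℝ) : Prop :=
  ∀ nu : X → ℝ, (∀ x, 0 ≤ nu x) → (∑ x, nu x = 1) → (∀ x, nu x ≤ eta) →
    ∃ F : X → X → ℝ, (∀ x, F x ∈ R) ∧
      ∀ z, ∑ x, nu x * Real.exp (-(lam * (F x x - F x z))) ≤ Real.exp (-(lam * m))

/-- Standing assumptions on R. -/
structure RSet {X : Type} [Fintype X] (R : Set (X → ℝ)) : Prop where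
  convex : Convex ℝ R
  compact : IsCompact R
  zero : (0 : X → ℝ) ∈ R
  symm : ∀ f ∈ R, -f ∈ R
  bdd : ∀ f ∈ R, ∀ x, |f x| ≤ 4
  sep : ∀ x x', x ≠ x' → ∃ f ∈ R, 1 ≤ f x - f x'

/-- Labels: lab f x determines the differences f x - f z up to 3 delta. -/
def Lab {X : Type} [Fintype X] (R : Set (X → ℝ)) (N : ℕ) (d : ℝ)
    (lab : (X → ℝ) → X → Fin N) : Prop :=
  ∀ f ∈ R, ∀ g ∈ R, ∀ x y, lab f x = lab g y → ∀ z, |(f x - f z) - (g y - g z)| ≤ 3 * d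

/-- A1. Minimax. -/
def MINIMAX : Prop := ∀ (X : Type) [Fintype X] (R : Set (X → ℝ)), RSet R →
  ∀ nu : X → ℝ, (∀ x, 0 ≤ nu x) → (∑ x, nu x = 1) → (∀ x, nu x ≤ 1 / 2) →
    ∃ F : X → X → ℝ, (∀ x, F x ∈ R) ∧ ∀ z, 1 / 4 ≤ ∑ x, nu x * (F x x - F x z)

/-- A2. Base case (uses MINIMAX). -/
def BASE : Prop := ∀ (X : Type) [Fintype X] (R : Set (X → ℝ)), RSet R →
  Good R (1 / 512) (1 / 8) (1 / 2)

/-- A3. Composition. -/
def COMPOSE : Prop := ∀ (X : Type) [Fintype X] (R : Set (X → ℝ)), RSet R →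
  ∀ (N Q : ℕ) (d lam m eta : ℝ) (lab : (X → ℝ) → X → Fin N), Lab R N d lab →
    0 < d → 0 < lam → 0 < eta → 1 ≤ Q → 1 ≤ N → Good R lam m eta →
    Good R (Q * lam) (m - 4 * d)
      (eta * Real.exp (-(Q * lam * m)) * (Q * lam * d) / (N * Real.exp (8 * lam)) ^ Q)

/-- A4. End of the argument: a Good property on a set with at least 1/eta points
bounds lam. -/
def FINAL : Prop := ∀ (X : Type) [Fintype X] (R : Set (X → ℝ)), RSet R →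
  ∀ (N : ℕ) (d lam m eta : ℝ) (lab : (X → ℝ) → X → Fin N), Lab R N d lab →
    0 < d → 0 < lam → 0 < eta → 1 ≤ N → Good R lam m eta → 1 ≤ eta * Fintype.card X →
    lam * (m - 3 * d) ≤ Real.log N

/-- A5. Iteration and numerics (uses BASE, COMPOSE, FINAL). -/
def ITER : Prop := ∃ C : ℝ, 1 ≤ C ∧ ∀ (X : Type) [Fintype X] (R : Set (X → ℝ)), RSet R →
  ∀ (l N : ℕ) (lab : (X → ℝ) → X → Fin N), 1 ≤ l → 512 * l ≤ N → Lab R N (1 / (64 * l)) lab →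
    Real.log (Fintype.card X) ≤ C * l * Real.log N ^ (1 + 1 / (l : ℝ))

/-- A6. Abstract bound (uses ITER): here c only labels the functions. -/
def ABSTR : Prop := ∃ C : ℝ, 1 ≤ C ∧ ∀ (X : Type) [Fintype X] (R : Set (X → ℝ)), RSet R →
  ∀ (l N : ℕ) (c : (X → ℝ) → Fin N), 1 ≤ l →
    (∀ f ∈ R, ∀ g ∈ R, c f = c g → ∀ x, |f x - g x| ≤ 2 * (1 / (64 * (l : ℝ)))) →
    Real.log (Fintype.card X) ≤ C * (l : ℝ) ^ 3 * Real.log N ^ (1 + 1 / (l : ℝ))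

/-! ### Part B: convex geometry. -/

/-- B1. Polarity. -/
def POLAR : Prop := ∀ (n : ℕ) (K : Set (E n)), IsBody K →
  IsBody (polar K) ∧ polar (polar K) = K ∧
    (∀ x, x ∉ K → ∃ y ∈ polar K, 1 < inner ℝ x y) ∧
    (∀ t : ℝ, 0 < t → IsBody (dil t K) ∧ polar (dil t K) = dil t⁻¹ (polar K))

/-- B2. Covering numbers are attained, and dilation invariance. -/
def COVER : Prop := ∀ (n : ℕ) (A B : Set (E n)), IsBody A → IsBody B →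
  (∃ s : Finset (E n), s.card = coverNum A B ∧ ∀ a ∈ A, ∃ x ∈ s, a - x ∈ B) ∧
    (∀ t : ℝ, 0 < t → coverNum (dil t A) (dil t B) = coverNum A B)

/-- X is L-separated. -/
def Sep {n : ℕ} (L : Set (E n)) (X : Finset (E n)) : Prop :=
  ∀ x ∈ X, ∀ y ∈ X, x ≠ y → x - y ∉ L

/-- B3. Telescoping over scales. -/
def TELE : Prop := ∀ (n : ℕ) (K L : Set (E n)), IsBody K → IsBody L →
  ∀ X : Finset (E n), (∀ x ∈ X, x ∈ K) → Sep L X →
    ∃ (J : ℕ) (Y : ℕ → Finset (E n)),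
      (∀ j, j < J → (∀ x ∈ Y j, x ∈ dil 2 K ∧ x ∈ dil ((4 : ℝ) ^ (j + 1)) L) ∧
        Sep (dil ((4 : ℝ) ^ j) L) (Y j)) ∧
      X.card ≤ ∏ j ∈ Finset.range J, (Y j).card

/-- B4. Maximal separated sets exist: a covering of the body A by few translates of B. -/
def MAXSEP : Prop := ∀ (n : ℕ) (K L : Set (E n)), IsBody K → IsBody L →
  ∃ X : Finset (E n), X.Nonempty ∧ (∀ x ∈ X, x ∈ K) ∧ Sep L X ∧ ∀ a ∈ K, ∃ x ∈ X, a - x ∈ L

/-- B5. Nets of dual functionals at scale j: a maximal d-separated subset of 4^{-j} L^o for the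
norm sup over K' = 2K ∩ 4^{j+1} L. -/
def NET : Prop := ∀ (n : ℕ) (K L : Set (E n)), IsBody K → IsBody L → ∀ (d : ℝ), 0 < d → ∀ j : ℕ,
  ∃ S : Finset (E n), S.Nonempty ∧ (∀ s ∈ S, s ∈ dil ((4 : ℝ) ^ j)⁻¹ (polar L)) ∧
    (∀ s ∈ S, ∀ s' ∈ S, s ≠ s' →
      ∃ x ∈ dil 2 K, x ∈ dil ((4 : ℝ) ^ (j + 1)) L ∧ d < inner ℝ x (s - s')) ∧
    (∀ y ∈ dil ((4 : ℝ) ^ j)⁻¹ (polar L), ∃ s ∈ S,
      ∀ x ∈ dil 2 K, x ∈ dil ((4 : ℝ) ^ (j + 1)) L → |inner ℝ x (y - s)| ≤ d)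

/-- B6. One scale (uses ABSTR, POLAR). -/
def LEVEL : Prop := ∃ C : ℝ, 1 ≤ C ∧ ∀ (n : ℕ) (K L : Set (E n)), IsBody K → IsBody L →
  ∀ (l j : ℕ), 1 ≤ l → ∀ (Y S : Finset (E n)),
    (∀ x ∈ Y, x ∈ dil 2 K ∧ x ∈ dil ((4 : ℝ) ^ (j + 1)) L) → Sep (dil ((4 : ℝ) ^ j) L) Y →
    (∀ s ∈ S, s ∈ dil ((4 : ℝ) ^ j)⁻¹ (polar L)) →
    (∀ y ∈ dil ((4 : ℝ) ^ j)⁻¹ (polar L), ∃ s ∈ S,
      ∀ x ∈ dil 2 K, x ∈ dil ((4 : ℝ) ^ (j + 1)) L → |inner ℝ x (y - s)| ≤ 1 / (64 * (l : ℝ))) →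
    Real.log Y.card ≤ C * (l : ℝ) ^ 3 * Real.log S.card ^ (1 + 1 / (l : ℝ))

/-- B7. Dual side: products of the nets along a residue class mod r inject into L^o. -/
def DUAL : Prop := ∀ (n : ℕ) (K L : Set (E n)), IsBody K → IsBody L →
  ∀ (l J rho : ℕ), 1 ≤ l → ∀ (S : ℕ → Finset (E n)),
    (∀ j, ∀ s ∈ S j, s ∈ dil ((4 : ℝ) ^ j)⁻¹ (polar L)) →
    (∀ j, ∀ s ∈ S j, ∀ s' ∈ S j, s ≠ s' →
      ∃ x ∈ dil 2 K, x ∈ dil ((4 : ℝ) ^ (j + 1)) L ∧ 1 / (64 * (l : ℝ)) < inner ℝ x (s - s')) →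
    ∀ T : Finset (E n),
      (∀ a ∈ polar L, ∃ x ∈ T, a - x ∈ dil (1 / (1024 * (l : ℝ))) (polar K)) →
      ∏ j ∈ (Finset.range J).filter (fun j => j % (l + 6) = rho), (S j).card ≤ T.card

/-- B8. First inequality (uses TELE, MAXSEP, NET, LEVEL, DUAL, COVER). -/
def HALF : Prop := ∃ C : ℝ, 1 ≤ C ∧ ∀ (n : ℕ) (K L : Set (E n)), IsBody K → IsBody L →
  ∀ l : ℕ, 1 ≤ l →
    Real.log (coverNum K L) ≤ C * (l : ℝ) ^ 5 *
      Real.log (coverNum (polar L) (dil (1 / (1024 * (l : ℝ))) (polar K))) ^ (1 + 1 / (l : ℝ))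

/-- B9. Both inequalities (uses HALF, POLAR, COVER). -/
def BOTH : Prop := ∃ C : ℝ, 1 ≤ C ∧ ∀ (n : ℕ) (K L : Set (E n)), IsBody K → IsBody L →
  ∀ l : ℕ, 1 ≤ l →
    Real.log (coverNum K L) ≤ C * (l : ℝ) ^ 5 *
      Real.log (coverNum (polar L) (dil (1 / (1024 * (l : ℝ))) (polar K))) ^ (1 + 1 / (l : ℝ)) ∧
    Real.log (coverNum (polar L) (dil (1024 * (l : ℝ)) (polar K))) ≤ C * (l : ℝ) ^ 5 *
      Real.log (coverNum K L) ^ (1 + 1 / (l : ℝ))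

end Vale.Agent.P126
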