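import Vale.Agent.P126.Bas

namespace Vale.Agent.P126.Net

open Set Vale.Agent.P126 Vale.Agent.P126.Bas

variable {n : ℕ}

theorem maxsep_proof : MAXSEP := by
  intro n K L hK hL
  obtain ⟨r, hr, hball⟩ := ball_sub hL
  obtain ⟨X, h1, h2, h3⟩ := max_sep K hK.compact.isBounded (fun a b => a - b ∈ L) r hr
    (fun a b hab => hball (by rwa [mem_ball_zero_iff]))
    (fun a b hab => by
      have := hL.symm _ hab
      rwa [neg_sub] at this)
  refine ⟨X, ?_, h1, h2, h3⟩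
  obtain ⟨x, hx, _⟩ := h3 0 (zero_mem hK)
  exact ⟨x, hx⟩

lemma polar_bound' {K : Set (E n)} (hK : IsBody K) :
    ∃ R : ℝ, 0 < R ∧ ∀ y ∈ polar K, ‖y‖ ≤ R := by
  obtain ⟨r, hr, hball⟩ := ball_sub hK
  refine ⟨2 / r, by positivity, ?_⟩
  intro y hy
  by_cases hy0 : y = 0
  · rw [hy0, norm_zero]
    positivity
  have hn : 0 < ‖y‖ := norm_pos_iff.2 hy0
  have h1 : ((r / 2) * ‖y‖⁻¹) • y ∈ K := by
    apply hball
    rw [mem_ball_zero_iff, norm_smul, Real.norm_of_nonneg (by positivity), mul_assoc,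
      inv_mul_cancel₀ hn.ne']
    linarith
  have h2 := hy _ h1
  rw [inner_smul_left, real_inner_self_eq_norm_sq] at h2
  simp only [conj_trivial] at h2
  rw [le_div_iff₀ hr]
  have h3 : r / 2 * ‖y‖⁻¹ * ‖y‖ ^ 2 = r / 2 * ‖y‖ := by
    field_simp
  rw [h3] at h2
  linarith

theorem net_proof : NET := by
  intro n K L hK hL d hd j
  obtain ⟨R, hR, hb⟩ := bound hK
  obtain ⟨R', hR', hb'⟩ := polar_bound' hL
  have h4 : (0 : ℝ) < (4 ^ j)⁻¹ := by positivity
  have hA : Bornology.IsBounded (dil ((4 : ℝ) ^ j)⁻¹ (polar L)) := by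
    rw [isBounded_iff_forall_norm_le]
    refine ⟨(4 ^ j)⁻¹ * R', ?_⟩
    rintro y ⟨z, hz, rfl⟩
    rw [norm_smul, Real.norm_of_nonneg h4.le]
    gcongr
    exact hb' z hz
  obtain ⟨S, h1, h2, h3⟩ := max_sep (dil ((4 : ℝ) ^ j)⁻¹ (polar L)) hA
    (fun y s => ∀ x ∈ dil 2 K, x ∈ dil ((4 : ℝ) ^ (j + 1)) L → |inner ℝ x (y - s)| ≤ d)
    (d / (2 * R)) (by positivity)
    (by
      intro a b hab x hx _
      obtain ⟨z, hz, rfl⟩ := hx
      calc |inner ℝ ((2 : ℝ) • z) (a - b)| ≤ ‖(2 : ℝ) • z‖ * ‖a - b‖ := abs_real_inner_le_norm _ _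
        _ ≤ (2 * R) * (d / (2 * R)) := by
          gcongr
          rw [norm_smul, Real.norm_of_nonneg (by norm_num : (0 : ℝ) ≤ 2)]
          gcongr
          exact hb z hz
        _ = d := by field_simp)
    (by
      intro a b hab x hx hx'
      have := hab x hx hx'
      rwa [← neg_sub, inner_neg_right, abs_neg] at this)
  refine ⟨S, ?_, h1, ?_, h3⟩
  · have h0 : (0 : E n) ∈ dil ((4 : ℝ) ^ j)⁻¹ (polar L) := by
      refine ⟨0, ?_, by simp⟩
      intro x _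
      rw [inner_zero_right]
      exact zero_le_one
    obtain ⟨s, hs, _⟩ := h3 0 h0
    exact ⟨s, hs⟩
  · intro s hs s' hs' hss
    have h5 := h2 s hs s' hs' hss
    simp only [not_forall] at h5
    obtain ⟨x, hx, hx', hlt⟩ := h5
    rw [not_le, lt_abs] at hlt
    rcases hlt with h | h
    · exact ⟨x, hx, hx', h⟩
    · refine ⟨-x, dil_symm hK _ x hx, dil_symm hL _ x hx', ?_⟩
      rwa [inner_neg_left]

end Vale.Agent.P126.Net
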