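import Vale.Agent.P126.Bas

namespace Vale.Agent.P126.Pol

open Set Vale.Agent.P126 Vale.Agent.P126.Bas

variable {n : ℕ}

lemma polar_bound {K : Set (E n)} (hK : IsBody K) : ∃ R : ℝ, 0 < R ∧ ∀ y ∈ polar K, ‖y‖ ≤ R := by
  obtain ⟨r, hr, hball⟩ := ball_sub hK
  refine ⟨2 / r, by positivity, ?_⟩
  intro y hy
  by_cases hy0 : y = 0
  · rw [hy0, norm_zero]
    positivity
  have hn : 0 < ‖y‖ := norm_pos_iff.2 hy0
  have h1 : ((r / 2) * ‖y‖⁻¹) • y ∈ K := by
    apply hball
    rw [mem_ball_zero_iff, norm_smul, Real.norm_of_nonneg (by positivity), mul_assoc,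
      inv_mul_cancel₀ hn.ne']
    linarith
  have h2 := hy _ h1
  rw [inner_smul_left, real_inner_self_eq_norm_sq] at h2
  simp only [conj_trivial] at h2
  rw [le_div_iff₀ hr]
  have h3 : r / 2 * ‖y‖⁻¹ * ‖y‖ ^ 2 = r / 2 * ‖y‖ := by
    field_simp
  rw [h3] at h2
  linarith

lemma polar_closed (K : Set (E n)) : IsClosed (polar K) := by
  have : polar K = ⋂ x ∈ K, {y | inner ℝ x y ≤ 1} := by
    ext y
    simp [polar]
  rw [this]
  apply isClosed_biInter
  intro x _
  exact isClosed_le (by fun_prop) continuous_const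

lemma polar_body {K : Set (E n)} (hK : IsBody K) : IsBody (polar K) where
  convex := by
    intro y hy z hz a b ha hb hab x hx
    rw [inner_add_right, inner_smul_right, inner_smul_right]
    have h1 := hy x hx
    have h2 := hz x hx
    calc a * inner ℝ x y + b * inner ℝ x z ≤ a * 1 + b * 1 := by gcongr
      _ = 1 := by rw [mul_one, mul_one, hab]
  compact := by
    obtain ⟨R, hR, hb⟩ := polar_bound hK
    apply Metric.isCompact_of_isClosed_isBounded (polar_closed K)
    exact isBounded_iff_forall_norm_le.2 ⟨R, hb⟩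
  int := by
    obtain ⟨R, hR, hb⟩ := bound hK
    refine ⟨0, ?_⟩
    rw [mem_interior_iff_mem_nhds, Metric.mem_nhds_iff]
    refine ⟨1 / R, by positivity, ?_⟩
    intro y hy x hx
    rw [mem_ball_zero_iff] at hy
    calc inner ℝ x y ≤ ‖x‖ * ‖y‖ := real_inner_le_norm x y
      _ ≤ R * (1 / R) := by
        gcongr
        exact hb x hx
      _ = 1 := by field_simp
  symm := by
    intro y hy x hx
    rw [inner_neg_right, ← inner_neg_left]
    exact hy _ (hK.symm x hx)

lemma sepa {K : Set (E n)} (hK : IsBody K) (x : E n) (hx : x ∉ K) :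
    ∃ y ∈ polar K, 1 < inner ℝ x y := by
  obtain ⟨f, u, h1, h2⟩ := geometric_hahn_banach_closed_point hK.convex hK.compact.isClosed hx
  have hu : 0 < u := by
    have := h1 0 (zero_mem hK)
    rwa [map_zero] at this
  set v := (InnerProductSpace.toDual ℝ (E n)).symm f with hv
  have hf : ∀ z, f z = inner ℝ z v := by
    intro z
    rw [real_inner_comm, hv, InnerProductSpace.toDual_symm_apply]
  refine ⟨u⁻¹ • v, ?_, ?_⟩
  · intro z hz
    rw [inner_smul_right, ← hf, inv_mul_le_iff₀ hu]
    have := h1 z hz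
    linarith
  · rw [inner_smul_right, ← hf, lt_inv_mul_iff₀ hu]
    linarith

lemma dil_body {K : Set (E n)} (hK : IsBody K) {t : ℝ} (ht : 0 < t) : IsBody (dil t K) where
  convex := by
    intro y hy z hz a b ha hb hab
    rw [mem_dil ht.ne'] at hy hz ⊢
    have h := hK.convex hy hz ha hb hab
    have h2 : t⁻¹ • (a • y + b • z) = a • t⁻¹ • y + b • t⁻¹ • z := by
      module
    rw [h2]
    exact h
  compact := by
    have : dil t K = (fun x => t • x) '' K := by
      ext y
      constructor
      · rintro ⟨x, hx, rfl⟩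
        exact ⟨x, hx, rfl⟩
      · rintro ⟨x, hx, rfl⟩
        exact ⟨x, hx, rfl⟩
    rw [this]
    exact hK.compact.image (by fun_prop)
  int := by
    obtain ⟨r, hr, hball⟩ := ball_sub hK
    refine ⟨0, ?_⟩
    rw [mem_interior_iff_mem_nhds, Metric.mem_nhds_iff]
    refine ⟨t * r, by positivity, ?_⟩
    intro y hy
    rw [mem_dil ht.ne']
    apply hball
    rw [mem_ball_zero_iff] at hy ⊢
    rw [norm_smul, norm_inv, Real.norm_of_nonneg ht.le, inv_mul_lt_iff₀ ht]
    exact hy
  symm := fun x hx => dil_symm hK t x hx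

theorem polar_proof : POLAR := by
  intro n K hK
  refine ⟨polar_body hK, ?_, sepa hK, ?_⟩
  · apply Set.Subset.antisymm
    · intro x hx
      by_contra hcon
      obtain ⟨y, hy, hxy⟩ := sepa hK x hcon
      have := hx y hy
      rw [real_inner_comm] at this
      linarith
    · intro x hx y hy
      rw [real_inner_comm]
      exact hy x hx
  · intro t ht
    refine ⟨dil_body hK ht, ?_⟩
    ext y
    rw [mem_dil (inv_ne_zero ht.ne'), inv_inv]
    constructor
    · intro h x hx
      have := h (t • x) ⟨x, hx, rfl⟩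
      rw [inner_smul_left] at this
      rw [inner_smul_right]
      simpa using this
    · rintro h x ⟨z, hz, rfl⟩
      have := h z hz
      rw [inner_smul_right] at this
      rw [inner_smul_left]
      simpa using this

end Vale.Agent.P126.Pol
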