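import Vale.Agent.P126.Bas

namespace Vale.Agent.P126.Tel

open Set Vale.Agent.P126 Vale.Agent.P126.Bas

variable {n : ℕ}

/-- maximal separated subset of a finite set -/
lemma fin_max (L : Set (E n)) (hL0 : (0 : E n) ∈ L) (hsym : ∀ x ∈ L, -x ∈ L)
    (X : Finset (E n)) :
    ∃ X' ⊆ X, Sep L X' ∧ ∀ x ∈ X, ∃ y ∈ X', x - y ∈ L := by
  classical
  have hne : (X.powerset.filter (fun Z => Sep L Z)).Nonempty := by
    refine ⟨∅, ?_⟩
    rw [Finset.mem_filter]
    exact ⟨Finset.empty_mem_powerset _, fun x hx => absurd hx (Finset.notMem_empty x)⟩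
  obtain ⟨X', hX', hmax⟩ := Finset.exists_max_image _ Finset.card hne
  rw [Finset.mem_filter, Finset.mem_powerset] at hX'
  refine ⟨X', hX'.1, hX'.2, ?_⟩
  intro x hx
  by_contra hcon
  push Not at hcon
  have hxX : x ∉ X' := by
    intro h
    exact hcon x h (by rw [sub_self]; exact hL0)
  have h1 : insert x X' ∈ X.powerset.filter (fun Z => Sep L Z) := by
    rw [Finset.mem_filter, Finset.mem_powerset]
    refine ⟨Finset.insert_subset hx hX'.1, ?_⟩
    intro a ha b hb hab
    rcases Finset.mem_insert.1 ha with rfl | ha'
    · rcases Finset.mem_insert.1 hb with rfl | hb'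
      · exact absurd rfl hab
      · exact hcon b hb'
    · rcases Finset.mem_insert.1 hb with rfl | hb'
      · intro h2
        apply hcon a ha'
        have := hsym _ h2
        rwa [neg_sub] at this
      · exact hX'.2 a ha' b hb' hab
  have h2 := hmax _ h1
  rw [Finset.card_insert_of_notMem hxX] at h2
  omega

theorem tele_proof : TELE := by
  classical
  intro n K L hK hL X hXK hXL
  obtain ⟨r, hr, hball⟩ := ball_sub hL
  obtain ⟨R, hR, hRK⟩ := bound hK
  obtain ⟨J, hJ⟩ := pow_unbounded_of_one_lt (2 * R / r) (by norm_num : (1 : ℝ) < 4)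
  have habs : ∀ x ∈ K, ∀ y ∈ K, x - y ∈ dil ((4 : ℝ) ^ J) L := by
    intro x hx y hy
    have h4 : (0 : ℝ) < 4 ^ J := by positivity
    rw [mem_dil h4.ne']
    apply hball
    rw [mem_ball_zero_iff, norm_smul, norm_inv, Real.norm_of_nonneg h4.le]
    have h1 : ‖x - y‖ ≤ 2 * R := by
      calc ‖x - y‖ ≤ ‖x‖ + ‖y‖ := norm_sub_le _ _
        _ ≤ R + R := add_le_add (hRK x hx) (hRK y hy)
        _ = 2 * R := by ring
    rw [inv_mul_lt_iff₀ h4]
    rw [div_lt_iff₀ hr] at hJ
    linarith
  have key : ∀ k j : ℕ, j + k = J → ∀ X : Finset (E n), (∀ x ∈ X, x ∈ K) →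
      Sep (dil ((4 : ℝ) ^ j) L) X →
      ∃ Y : ℕ → Finset (E n),
      (∀ i, (∀ x ∈ Y i, x ∈ dil 2 K ∧ x ∈ dil ((4 : ℝ) ^ (i + 1)) L) ∧
        Sep (dil ((4 : ℝ) ^ i) L) (Y i)) ∧
      X.card ≤ ∏ i ∈ Finset.Ico j J, (Y i).card := by
    intro k
    induction k with
    | zero =>
      intro j hj X hXK hXs
      refine ⟨fun _ => ∅, ?_, ?_⟩
      · intro i
        refine ⟨fun x hx => absurd hx (Finset.notMem_empty x), fun x hx => absurd hx (Finset.notMem_empty x)⟩
      · have : j = J := by omega
        subst this
        rw [Finset.Ico_self, Finset.prod_empty, Finset.card_le_one]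
        intro a ha b hb
        by_contra hab
        exact hXs a ha b hb hab (habs a (hXK a ha) b (hXK b hb))
    | succ k ih =>
      intro j hj X hXK hXs
      have hB : IsBody L := hL
      have h4 : (0 : ℝ) < 4 ^ (j + 1) := by positivity
      have h0 : (0 : E n) ∈ dil ((4 : ℝ) ^ (j + 1)) L := by
        rw [mem_dil h4.ne', smul_zero]
        exact zero_mem hL
      obtain ⟨X', hX'X, hX's, hX'c⟩ := fin_max (dil ((4 : ℝ) ^ (j + 1)) L) h0
        (fun x hx => dil_symm hL _ x hx) X
      obtain ⟨Y, hY1, hY2⟩ := ih (j + 1) (by omega) X' (fun x hx => hXK x (hX'X hx)) hX's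
      rcases X'.eq_empty_or_nonempty with he | hne
      · -- X empty
        have hXe : X = ∅ := by
          rw [Finset.eq_empty_iff_forall_notMem]
          intro x hx
          obtain ⟨y, hy, _⟩ := hX'c x hx
          rw [he] at hy
          exact absurd hy (Finset.notMem_empty y)
        refine ⟨Y, hY1, ?_⟩
        rw [hXe]
        simp
      · obtain ⟨y, hy, hymax⟩ := Finset.exists_max_image X'
          (fun y => (X.filter (fun x => x - y ∈ dil ((4 : ℝ) ^ (j + 1)) L)).card) hne
        set Z := (X.filter (fun x => x - y ∈ dil ((4 : ℝ) ^ (j + 1)) L)) with hZ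
        refine ⟨Function.update Y j (Z.image (fun x => x - y)), ?_, ?_⟩
        · intro i
          by_cases hij : i = j
          · subst hij
            rw [Function.update_self]
            refine ⟨?_, ?_⟩
            · intro x hx
              rw [Finset.mem_image] at hx
              obtain ⟨z, hz, rfl⟩ := hx
              rw [hZ, Finset.mem_filter] at hz
              refine ⟨?_, hz.2⟩
              rw [mem_dil two_ne_zero]
              have h1 := hK.convex (hXK z hz.1) (hK.symm y (hXK y (hX'X hy)))
                (by norm_num : (0 : ℝ) ≤ 1 / 2) (by norm_num : (0 : ℝ) ≤ 1 / 2) (by norm_num)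
              have h2 : (2 : ℝ)⁻¹ • (z - y) = (1 / 2 : ℝ) • z + (1 / 2 : ℝ) • (-y) := by
                module
              rw [h2]
              exact h1
            · intro a ha b hb hab
              rw [Finset.mem_image] at ha hb
              obtain ⟨z, hz, rfl⟩ := ha
              obtain ⟨z', hz', rfl⟩ := hb
              rw [hZ, Finset.mem_filter] at hz hz'
              have h1 : z - y - (z' - y) = z - z' := by abel
              rw [h1]
              apply hXs z hz.1 z' hz'.1
              rintro rfl
              exact hab rfl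
          · rw [Function.update_of_ne hij]
            exact hY1 i
        · have hcov : X ⊆ X'.biUnion (fun y => X.filter (fun x => x - y ∈ dil ((4 : ℝ) ^ (j + 1)) L)) := by
            intro x hx
            obtain ⟨y', hy', hxy⟩ := hX'c x hx
            rw [Finset.mem_biUnion]
            exact ⟨y', hy', by rw [Finset.mem_filter]; exact ⟨hx, hxy⟩⟩
          have h1 : X.card ≤ X'.card * Z.card :=
            (Finset.card_le_card hcov).trans (Finset.card_biUnion_le_card_mul _ _ _ hymax)
          have h2 : (Z.image (fun x => x - y)).card = Z.card := by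
            apply Finset.card_image_of_injective
            intro a b hab
            exact sub_left_injective hab
          have h3 : ∏ i ∈ Finset.Ico j J, (Function.update Y j (Z.image (fun x => x - y)) i).card
              = Z.card * ∏ i ∈ Finset.Ico (j + 1) J, (Y i).card := by
            rw [← Finset.insert_Ico_add_one_left_eq_Ico (by omega : j < J), Finset.prod_insert (by simp),
              Function.update_self, h2]
            congr 1
            apply Finset.prod_congr rfl
            intro i hi
            rw [Finset.mem_Ico] at hi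
            rw [Function.update_of_ne (by omega)]
          rw [h3]
          calc X.card ≤ X'.card * Z.card := h1
            _ ≤ (∏ i ∈ Finset.Ico (j + 1) J, (Y i).card) * Z.card := by gcongr
            _ = _ := by ring
  have hXs0 : Sep (dil ((4 : ℝ) ^ 0) L) X := by
    rw [pow_zero, dil_one]
    exact hXL
  obtain ⟨Y, hY1, hY2⟩ := key J 0 (by omega) X hXK hXs0
  refine ⟨J, Y, fun j _ => hY1 j, ?_⟩
  rwa [Nat.Ico_zero_eq_range] at hY2

end Vale.Agent.P126.Tel
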